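import Vale.Agent.P004.H503.Iface3

/-!
# P004, module G(a): derivative bounds for the window functions (`StWf`)
-/

open Real MeasureTheory Set

namespace P004

namespace Wf

/-! ### the smooth step -/

lemma eta_smooth (n : ℕ) : ContDiff ℝ n ηf := by
  unfold ηf
  exact (Real.smoothTransition.contDiff (n := (n : ℕ∞))).comp (contDiff_id.sub contDiff_const)

lemma eta_zero {t : ℝ} (h : t ≤ 1) : ηf t = 0 := by
  unfold ηf
  exact Real.smoothTransition.zero_of_nonpos (by linarith)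

lemma eta_one {t : ℝ} (h : 2 ≤ t) : ηf t = 1 := by
  unfold ηf
  exact Real.smoothTransition.one_of_one_le (by linarith)

lemma eta_nonneg (t : ℝ) : 0 ≤ ηf t := Real.smoothTransition.nonneg _

lemma eta_le_one (t : ℝ) : ηf t ≤ 1 := Real.smoothTransition.le_one _

lemma eta_bd (k : ℕ) : ∃ C : ℝ, 1 ≤ C ∧ ∀ t, |iteratedDeriv k ηf t| ≤ C := by
  rcases Nat.eq_zero_or_pos k with h0 | h0
  · subst h0
    refine ⟨1, le_rfl, fun t => ?_⟩
    rw [iteratedDeriv_zero, abs_of_nonneg (eta_nonneg t)]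
    exact eta_le_one t
  · have hc : Continuous (iteratedDeriv k ηf) :=
      (eta_smooth k).continuous_iteratedDeriv k le_rfl
    obtain ⟨C, hC⟩ := (isCompact_Icc (a := (1 : ℝ)) (b := 2)).exists_bound_of_continuousOn
      hc.continuousOn
    refine ⟨max C 1, le_max_right _ _, fun t => ?_⟩
    rcases lt_or_ge t 1 with h1 | h1
    · have : ηf =ᶠ[nhds t] fun _ => (0 : ℝ) := by
        filter_upwards [Iio_mem_nhds h1] with s hs
        exact eta_zero (le_of_lt hs)
      rw [this.iteratedDeriv_eq, iteratedDeriv_const, if_neg h0.ne', abs_zero]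
      exact le_trans zero_le_one (le_max_right _ _)
    · rcases lt_or_ge 2 t with h2 | h2
      · have : ηf =ᶠ[nhds t] fun _ => (1 : ℝ) := by
          filter_upwards [Ioi_mem_nhds h2] with s hs
          exact eta_one (le_of_lt hs)
        rw [this.iteratedDeriv_eq, iteratedDeriv_const, if_neg h0.ne', abs_zero]
        exact le_trans zero_le_one (le_max_right _ _)
      · exact (hC t ⟨h1, h2⟩).trans (le_max_left _ _)

lemma eta_bd' (n : ℕ) : ∃ C : ℝ, 1 ≤ C ∧ ∀ k ≤ n, ∀ t, |iteratedDeriv k ηf t| ≤ C := by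
  induction n with
  | zero =>
    obtain ⟨C, h1, h2⟩ := eta_bd 0
    refine ⟨C, h1, fun k hk t => ?_⟩
    obtain rfl : k = 0 := by omega
    exact h2 t
  | succ n ih =>
    obtain ⟨C, h1, h2⟩ := ih
    obtain ⟨C', h1', h2'⟩ := eta_bd (n + 1)
    refine ⟨max C C', le_max_of_le_left h1, fun k hk t => ?_⟩
    rcases Nat.lt_or_ge k (n + 1) with h | h
    · exact (h2 k (by omega) t).trans (le_max_left _ _)
    · obtain rfl : k = n + 1 := by omega
      exact (h2' t).trans (le_max_right _ _)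

lemma eta_scale_smooth (n : ℕ) (w : ℝ) : ContDiff ℝ n (fun x => ηf (x / w)) :=
  (eta_smooth n).comp (contDiff_id.div_const w)

lemma eta_scale_bd {n : ℕ} {C : ℝ} (hC : ∀ k ≤ n, ∀ t, |iteratedDeriv k ηf t| ≤ C) {w : ℝ}
    (hw : 0 < w) (k : ℕ) (hk : k ≤ n) (x : ℝ) :
    |iteratedDeriv k (fun x => ηf (x / w)) x| ≤ C * w⁻¹ ^ k := by
  have h1 : (fun x => ηf (x / w)) = fun x => ηf (w⁻¹ * x) := by
    funext x
    rw [div_eq_inv_mul]
  rw [h1, iteratedDeriv_comp_const_mul (eta_smooth k) w⁻¹]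
  simp only
  rw [abs_mul, abs_of_nonneg (by positivity : 0 ≤ w⁻¹ ^ k), mul_comm]
  exact mul_le_mul_of_nonneg_right (hC k hk _) (by positivity)

/-! ### the Leibniz rule -/

lemma mul_bd {n : ℕ} {f g : ℝ → ℝ} {F G w : ℝ} (hf : ContDiff ℝ n f) (hg : ContDiff ℝ n g)
    (hw : 0 < w) (hF : 0 ≤ F) (hG : 0 ≤ G) (x : ℝ)
    (hfx : ∀ k ≤ n, |iteratedDeriv k f x| ≤ F * w⁻¹ ^ k)
    (hgx : ∀ k ≤ n, |iteratedDeriv k g x| ≤ G * w⁻¹ ^ k) (i : ℕ) (hi : i ≤ n) :
    |iteratedDeriv i (fun x => f x * g x) x| ≤ 2 ^ n * (F * G) * w⁻¹ ^ i := by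
  have hfi : ContDiffAt ℝ i f x := (hf.of_le (by exact_mod_cast hi)).contDiffAt
  have hgi : ContDiffAt ℝ i g x := (hg.of_le (by exact_mod_cast hi)).contDiffAt
  have h0 : iteratedDeriv i (fun x => f x * g x) x = ∑ l ∈ Finset.range (i + 1),
      i.choose l * iteratedDeriv l f x * iteratedDeriv (i - l) g x := by
    have := iteratedDeriv_mul hfi hgi
    exact this
  rw [h0]
  calc |∑ l ∈ Finset.range (i + 1), (i.choose l : ℝ) * iteratedDeriv l f x *
          iteratedDeriv (i - l) g x|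
      ≤ ∑ l ∈ Finset.range (i + 1), |(i.choose l : ℝ) * iteratedDeriv l f x *
          iteratedDeriv (i - l) g x| := Finset.abs_sum_le_sum_abs _ _
    _ ≤ ∑ l ∈ Finset.range (i + 1), (i.choose l : ℝ) * (F * G * w⁻¹ ^ i) := by
        refine Finset.sum_le_sum fun l hl => ?_
        have hl' : l ≤ i := by
          rw [Finset.mem_range] at hl
          omega
        rw [abs_mul, abs_mul, abs_of_nonneg (Nat.cast_nonneg _ : (0 : ℝ) ≤ (i.choose l : ℝ)),
          mul_assoc]
        refine mul_le_mul_of_nonneg_left ?_ (Nat.cast_nonneg _)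
        calc |iteratedDeriv l f x| * |iteratedDeriv (i - l) g x|
            ≤ (F * w⁻¹ ^ l) * (G * w⁻¹ ^ (i - l)) :=
              mul_le_mul (hfx l (hl'.trans hi)) (hgx (i - l) ((Nat.sub_le _ _).trans hi))
                (abs_nonneg _) (by positivity)
          _ = F * G * w⁻¹ ^ i := by
              have : w⁻¹ ^ i = w⁻¹ ^ l * w⁻¹ ^ (i - l) := by
                rw [← pow_add]
                congr 1
                omega
              rw [this]
              ring
    _ = 2 ^ i * (F * G * w⁻¹ ^ i) := by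
        rw [← Finset.sum_mul]
        congr 1
        exact_mod_cast Nat.sum_range_choose i
    _ ≤ 2 ^ n * (F * G * w⁻¹ ^ i) := by
        refine mul_le_mul_of_nonneg_right ?_ (by positivity)
        exact pow_le_pow_right₀ (by norm_num) hi
    _ = 2 ^ n * (F * G) * w⁻¹ ^ i := by ring

/-- a product with a function supported in `[a, b]` : bounds of the second factor are only needed
on `[a, b]`. -/
lemma mul_bd_supp {n : ℕ} {f g : ℝ → ℝ} {F G w a b : ℝ} (hf : ContDiff ℝ n f)
    (hg : ContDiff ℝ n g) (hw : 0 < w) (hF : 0 ≤ F) (hG : 0 ≤ G)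
    (hs : ∀ x, x < a ∨ b < x → f x = 0)
    (hfx : ∀ k ≤ n, ∀ x, |iteratedDeriv k f x| ≤ F * w⁻¹ ^ k)
    (hgx : ∀ k ≤ n, ∀ x, a ≤ x → x ≤ b → |iteratedDeriv k g x| ≤ G * w⁻¹ ^ k) (i : ℕ)
    (hi : i ≤ n) (x : ℝ) :
    |iteratedDeriv i (fun x => f x * g x) x| ≤ 2 ^ n * (F * G) * w⁻¹ ^ i := by
  by_cases hx : a ≤ x ∧ x ≤ b
  · exact mul_bd hf hg hw hF hG x (fun k hk => hfx k hk x) (fun k hk => hgx k hk x hx.1 hx.2) i hi
  · have hz : (fun x => f x * g x) =ᶠ[nhds x] fun _ => (0 : ℝ) := by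
      rcases lt_or_ge x a with h | h
      · filter_upwards [Iio_mem_nhds h] with y hy
        rw [hs y (Or.inl hy), zero_mul]
      · have h' : b < x := by
          by_contra h2
          exact hx ⟨h, not_lt.1 h2⟩
        filter_upwards [Ioi_mem_nhds h'] with y hy
        rw [hs y (Or.inr hy), zero_mul]
    rw [hz.iteratedDeriv_eq, iteratedDeriv_const]
    simp only [ite_self, abs_zero]
    positivity

/-! ### truncated exponentials -/

/-- the partial sums of the exponential series -/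
noncomputable def Sx (a : ℕ) (t : ℝ) : ℝ := ∑ i ∈ Finset.range a, t ^ i / (i.factorial : ℝ)

lemma Sx_succ (a : ℕ) (t : ℝ) : Sx (a + 1) t = Sx a t + t ^ a / (a.factorial : ℝ) := by
  unfold Sx
  rw [Finset.sum_range_succ]

lemma Sx_le_exp (a : ℕ) {t : ℝ} (ht : 0 ≤ t) : Sx a t ≤ Real.exp t :=
  Real.sum_le_exp_of_nonneg ht a

lemma Sx_nonneg (a : ℕ) {t : ℝ} (ht : 0 ≤ t) : 0 ≤ Sx a t :=
  Finset.sum_nonneg fun i _ => by positivity

lemma Sx_mono {a b : ℕ} (h : a ≤ b) {t : ℝ} (ht : 0 ≤ t) : Sx a t ≤ Sx b t :=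
  Finset.sum_le_sum_of_subset_of_nonneg (Finset.range_mono h) fun i _ _ => by positivity

lemma Sx_le_pow (a : ℕ) {t : ℝ} (ht : 0 ≤ t) : Sx a t ≤ (1 + t) ^ a := by
  induction a with
  | zero => simp [Sx]
  | succ a ih =>
    rw [Sx_succ]
    rcases Nat.eq_zero_or_pos a with h | h
    · subst h
      simp [Sx, ht]
    · have h1 : t ^ a / (a.factorial : ℝ) ≤ t * (1 + t) ^ a := by
        have h2 : t ^ a / (a.factorial : ℝ) ≤ t ^ a := by
          refine div_le_self (by positivity) ?_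
          exact_mod_cast Nat.one_le_iff_ne_zero.2 (Nat.factorial_ne_zero a)
        refine h2.trans ?_
        obtain ⟨b, rfl⟩ : ∃ b, a = b + 1 := ⟨a - 1, by omega⟩
        rw [pow_succ' t]
        refine mul_le_mul_of_nonneg_left ?_ ht
        calc t ^ b ≤ (1 + t) ^ b := pow_le_pow_left₀ ht (by linarith) b
          _ ≤ (1 + t) ^ (b + 1) := pow_le_pow_right₀ (by linarith) (by omega)
      calc Sx a t + t ^ a / (a.factorial : ℝ) ≤ (1 + t) ^ a + t * (1 + t) ^ a := add_le_add ih h1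
        _ = (1 + t) ^ (a + 1) := by ring

lemma Sx_abs_le (a : ℕ) (t : ℝ) : |Sx a t| ≤ Sx a |t| := by
  unfold Sx
  refine (Finset.abs_sum_le_sum_abs _ _).trans (le_of_eq ?_)
  refine Finset.sum_congr rfl fun i _ => ?_
  rw [abs_div, abs_pow, Nat.abs_cast]

/-- the tail of the exponential series -/
lemma exp_sub_Sx_le (b : ℕ) {t : ℝ} (ht : 0 ≤ t) :
    Real.exp t - Sx b t ≤ t ^ b / (b.factorial : ℝ) * Real.exp t := by
  have hs : Summable (fun n : ℕ => t ^ n / (n.factorial : ℝ)) := Real.summable_pow_div_factorial t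
  have he : Real.exp t = ∑' n : ℕ, t ^ n / (n.factorial : ℝ) := by
    rw [Real.exp_eq_exp_ℝ, NormedSpace.exp_eq_tsum_div]
  have h1 : Real.exp t - Sx b t = ∑' n : ℕ, t ^ (n + b) / ((n + b).factorial : ℝ) := by
    rw [he, ← hs.sum_add_tsum_nat_add b]
    unfold Sx
    ring
  rw [h1]
  conv_rhs => rw [he]
  rw [← tsum_mul_left]
  refine Summable.tsum_le_tsum (fun n => ?_) ((summable_nat_add_iff b).2 hs) (hs.mul_left _)
  rw [div_mul_div_comm, ← pow_add, add_comm n b]
  refine div_le_div_of_nonneg_left (by positivity) (by positivity) ?_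
  have := Nat.factorial_mul_factorial_dvd_factorial_add b n
  exact_mod_cast Nat.le_of_dvd (Nat.factorial_pos _) this

lemma hasDerivAt_Sx_neg (b : ℕ) (t : ℝ) :
    HasDerivAt (fun t => Sx (b + 1) (-t)) (-(Sx b (-t))) t := by
  induction b with
  | zero =>
    have : (fun t : ℝ => Sx (0 + 1) (-t)) = fun _ => (1 : ℝ) := by
      funext t
      simp [Sx]
    rw [this]
    simpa [Sx] using hasDerivAt_const t (1 : ℝ)
  | succ b ih =>
    have h1 : (fun t : ℝ => Sx (b + 1 + 1) (-t)) =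
        fun t => Sx (b + 1) (-t) + (-t) ^ (b + 1) / ((b + 1).factorial : ℝ) := by
      funext t
      rw [Sx_succ]
    rw [h1, Sx_succ b]
    have h2 : HasDerivAt (fun t : ℝ => (-t) ^ (b + 1) / ((b + 1).factorial : ℝ))
        (-((-t) ^ b / (b.factorial : ℝ))) t := by
      have h3 : HasDerivAt (fun t : ℝ => (-t) ^ (b + 1)) (((b + 1 : ℕ) : ℝ) * (-t) ^ b * (-1)) t := by
        exact ((hasDerivAt_neg t).pow (b + 1)).congr_deriv (by simp)
      have h4 := h3.div_const ((b + 1).factorial : ℝ)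
      refine h4.congr_deriv ?_
      rw [Nat.factorial_succ]
      push_cast
      have : (b.factorial : ℝ) ≠ 0 := by exact_mod_cast Nat.factorial_ne_zero b
      field_simp
    have h5 := ih.add h2
    refine h5.congr_deriv ?_
    ring

/-- alternating bound -/
lemma exp_neg_sub_Sx (b : ℕ) : ∀ t : ℝ, 0 ≤ t →
    |Real.exp (-t) - Sx b (-t)| ≤ t ^ b / (b.factorial : ℝ) := by
  induction b with
  | zero =>
    intro t ht
    simp only [Sx, Finset.range_zero, Finset.sum_empty, sub_zero, pow_zero, Nat.factorial_zero,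
      Nat.cast_one, div_one]
    rw [abs_of_nonneg (Real.exp_pos _).le]
    exact Real.exp_le_one_iff.2 (by linarith)
  | succ b ih =>
    intro t ht
    have hd1 : ∀ s : ℝ, HasDerivAt (fun t : ℝ => t ^ (b + 1) / ((b + 1).factorial : ℝ))
        (s ^ b / (b.factorial : ℝ)) s := by
      intro s
      have h3 := (hasDerivAt_pow (b + 1) s).div_const ((b + 1).factorial : ℝ)
      refine h3.congr_deriv ?_
      rw [Nat.factorial_succ]
      push_cast
      have : (b.factorial : ℝ) ≠ 0 := by exact_mod_cast Nat.factorial_ne_zero b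
      field_simp
    have hd2 : ∀ s : ℝ, HasDerivAt (fun t : ℝ => Real.exp (-t) - Sx (b + 1) (-t))
        (-(Real.exp (-s) - Sx b (-s))) s := by
      intro s
      have h4 : HasDerivAt (fun t : ℝ => Real.exp (-t)) (Real.exp (-s) * (-1)) s :=
        (hasDerivAt_neg s).exp
      have h5 := h4.sub (hasDerivAt_Sx_neg b s)
      refine h5.congr_deriv ?_
      ring
    have hz : Real.exp (-(0 : ℝ)) - Sx (b + 1) (-0) = 0 := by
      simp only [neg_zero, Real.exp_zero]
      unfold Sx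
      rw [Finset.sum_range_succ']
      simp
    have hz1 : (0 : ℝ) ^ (b + 1) / ((b + 1).factorial : ℝ) = 0 := by simp
    have m1 : MonotoneOn (fun t : ℝ => t ^ (b + 1) / ((b + 1).factorial : ℝ) -
        (Real.exp (-t) - Sx (b + 1) (-t))) (Ici 0) := by
      refine monotoneOn_of_deriv_nonneg (convex_Ici 0) ?_ ?_ ?_
      · exact fun s _ => ((hd1 s).sub (hd2 s)).continuousAt.continuousWithinAt
      · exact fun s _ => ((hd1 s).sub (hd2 s)).differentiableAt.differentiableWithinAt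
      · intro s hs
        rw [interior_Ici] at hs
        have hs0 : (0 : ℝ) ≤ s := le_of_lt hs
        have h6 : HasDerivAt (fun t : ℝ => t ^ (b + 1) / ((b + 1).factorial : ℝ) -
            (Real.exp (-t) - Sx (b + 1) (-t))) _ s := (hd1 s).sub (hd2 s)
        rw [h6.deriv]
        have := (abs_le.1 (ih s hs0)).1
        linarith
    have m2 : MonotoneOn (fun t : ℝ => t ^ (b + 1) / ((b + 1).factorial : ℝ) +
        (Real.exp (-t) - Sx (b + 1) (-t))) (Ici 0) := by
      refine monotoneOn_of_deriv_nonneg (convex_Ici 0) ?_ ?_ ?_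
      · exact fun s _ => ((hd1 s).add (hd2 s)).continuousAt.continuousWithinAt
      · exact fun s _ => ((hd1 s).add (hd2 s)).differentiableAt.differentiableWithinAt
      · intro s hs
        rw [interior_Ici] at hs
        have hs0 : (0 : ℝ) ≤ s := le_of_lt hs
        have h6 : HasDerivAt (fun t : ℝ => t ^ (b + 1) / ((b + 1).factorial : ℝ) +
            (Real.exp (-t) - Sx (b + 1) (-t))) _ s := (hd1 s).add (hd2 s)
        rw [h6.deriv]
        have := (abs_le.1 (ih s hs0)).2
        linarith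
    have e1 := m1 (mem_Ici.2 le_rfl) (mem_Ici.2 ht) ht
    have e2 := m2 (mem_Ici.2 le_rfl) (mem_Ici.2 ht) ht
    simp only [hz, hz1, sub_zero, add_zero] at e1 e2
    rw [abs_le]
    constructor <;> linarith

/-! ### `Gp` -/

lemma Gp_eq (z : ℝ) {a b : ℕ} (h : a ≤ b) (x : ℝ) : Gp z a b x = Sx b (z * x) - Sx a (z * x) := by
  unfold Gp Sx
  rw [Finset.sum_Ico_eq_sub _ h]

lemma Gp_empty (z : ℝ) {a b : ℕ} (h : b ≤ a) (x : ℝ) : Gp z a b x = 0 := by
  unfold Gp
  rw [Finset.Ico_eq_empty_of_le h, Finset.sum_empty]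

lemma Gp_abs_le (z x : ℝ) (a b : ℕ) : |Gp z a b x| ≤ |z * x| ^ a * Real.exp |z * x| := by
  unfold Gp
  rw [Finset.sum_Ico_eq_sum_range]
  calc |∑ k ∈ Finset.range (b - a), (z * x) ^ (a + k) / ((a + k).factorial : ℝ)|
      ≤ ∑ k ∈ Finset.range (b - a), |(z * x) ^ (a + k) / ((a + k).factorial : ℝ)| :=
        Finset.abs_sum_le_sum_abs _ _
    _ ≤ ∑ k ∈ Finset.range (b - a), |z * x| ^ a * (|z * x| ^ k / (k.factorial : ℝ)) := by
        refine Finset.sum_le_sum fun k _ => ?_
        rw [abs_div, abs_pow, Nat.abs_cast, pow_add, mul_div_assoc]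
        refine mul_le_mul_of_nonneg_left ?_ (by positivity)
        refine div_le_div_of_nonneg_left (by positivity) (by positivity) ?_
        exact_mod_cast Nat.factorial_le (by omega)
    _ = |z * x| ^ a * ∑ k ∈ Finset.range (b - a), |z * x| ^ k / (k.factorial : ℝ) := by
        rw [Finset.mul_sum]
    _ ≤ |z * x| ^ a * Real.exp |z * x| := by
        refine mul_le_mul_of_nonneg_left ?_ (by positivity)
        exact Real.sum_le_exp_of_nonneg (abs_nonneg _) _

lemma hasDerivAt_Gp (z : ℝ) (a b : ℕ) (x : ℝ) :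
    HasDerivAt (Gp z a b) (z * Gp z (a - 1) (b - 1) x) x := by
  induction b with
  | zero =>
    have h1 : Gp z a 0 = fun _ => (0 : ℝ) := by
      funext x
      exact Gp_empty z (Nat.zero_le _) x
    rw [h1, Gp_empty z (by omega) x, mul_zero]
    exact hasDerivAt_const x 0
  | succ b ih =>
    rcases Nat.lt_or_ge b a with h | h
    · have h1 : Gp z a (b + 1) = fun _ => (0 : ℝ) := by
        funext x
        exact Gp_empty z h x
      rw [h1, Gp_empty z (by omega) x, mul_zero]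
      exact hasDerivAt_const x 0
    · have h1 : Gp z a (b + 1) = fun x => Gp z a b x + (z * x) ^ b / (b.factorial : ℝ) := by
        funext x
        unfold Gp
        rw [Finset.sum_Ico_succ_top h]
      rw [h1, Nat.add_sub_cancel]
      rcases Nat.eq_zero_or_pos b with h0 | h0
      · subst h0
        have ha : a = 0 := by omega
        subst ha
        have h2 : (fun x : ℝ => Gp z 0 0 x + (z * x) ^ 0 / ((Nat.factorial 0 : ℕ) : ℝ)) =
            fun _ => (1 : ℝ) := by
          funext x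
          rw [Gp_empty z le_rfl x]
          simp
        rw [h2, Gp_empty z (by omega) x, mul_zero]
        exact hasDerivAt_const x 1
      · obtain ⟨c, rfl⟩ : ∃ c, b = c + 1 := ⟨b - 1, by omega⟩
        have h2 : HasDerivAt (fun x : ℝ => (z * x) ^ (c + 1) / ((c + 1).factorial : ℝ))
            (z * ((z * x) ^ c / (c.factorial : ℝ))) x := by
          have h3 : HasDerivAt (fun x : ℝ => z * x) z x := by
            simpa using (hasDerivAt_id x).const_mul z
          have h4 := (h3.pow (c + 1)).div_const ((c + 1).factorial : ℝ)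
          refine h4.congr_deriv ?_
          rw [Nat.factorial_succ]
          push_cast
          have : (c.factorial : ℝ) ≠ 0 := by exact_mod_cast Nat.factorial_ne_zero c
          field_simp
        refine (ih.add h2).congr_deriv ?_
        have h5 : Gp z (a - 1) (c + 1) x = Gp z (a - 1) c x + (z * x) ^ c / (c.factorial : ℝ) := by
          unfold Gp
          rw [Finset.sum_Ico_succ_top (by omega)]
        rw [h5, Nat.add_sub_cancel]
        ring

lemma Gp_smooth (z : ℝ) (a b n : ℕ) : ContDiff ℝ n (Gp z a b) := by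
  unfold Gp
  refine ContDiff.sum fun i _ => ?_
  exact ((contDiff_const.mul contDiff_id).pow i).div_const _

lemma Gp_iter (z : ℝ) (k : ℕ) : ∀ (a b : ℕ),
    iteratedDeriv k (Gp z a b) = fun x => z ^ k * Gp z (a - k) (b - k) x := by
  induction k with
  | zero =>
    intro a b
    funext x
    simp
  | succ k ih =>
    intro a b
    rw [iteratedDeriv_succ']
    have h1 : deriv (Gp z a b) = fun x => z * Gp z (a - 1) (b - 1) x := by
      funext x
      exact (hasDerivAt_Gp z a b x).deriv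
    rw [h1]
    funext x
    rw [iteratedDeriv_const_mul_field, ih (a - 1) (b - 1)]
    simp only
    rw [Nat.sub_sub, Nat.sub_sub, add_comm 1 k, pow_succ]
    ring

lemma Gp_neg_smooth (z : ℝ) (a b n : ℕ) : ContDiff ℝ n (fun x => Gp z a b (-x)) :=
  (Gp_smooth z a b n).comp contDiff_neg

lemma Gp_neg_iter (z : ℝ) (k a b : ℕ) (x : ℝ) :
    |iteratedDeriv k (fun x => Gp z a b (-x)) x| = |z ^ k * Gp z (a - k) (b - k) (-x)| := by
  rw [iteratedDeriv_comp_neg, Gp_iter]
  simp only [smul_eq_mul]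
  rw [abs_mul, abs_pow, abs_neg, abs_one, one_pow, one_mul]

lemma Gp_abs_le_exp (z x : ℝ) (a b : ℕ) : |Gp z a b x| ≤ Real.exp |z * x| := by
  unfold Gp
  calc |∑ i ∈ Finset.Ico a b, (z * x) ^ i / (i.factorial : ℝ)|
      ≤ ∑ i ∈ Finset.Ico a b, |(z * x) ^ i / (i.factorial : ℝ)| := Finset.abs_sum_le_sum_abs _ _
    _ = ∑ i ∈ Finset.Ico a b, |z * x| ^ i / (i.factorial : ℝ) := by
        refine Finset.sum_congr rfl fun i _ => ?_
        rw [abs_div, abs_pow, Nat.abs_cast]
    _ ≤ ∑ i ∈ Finset.range b, |z * x| ^ i / (i.factorial : ℝ) := by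
        refine Finset.sum_le_sum_of_subset_of_nonneg ?_ fun i _ _ => by positivity
        intro i hi
        rw [Finset.mem_Ico] at hi
        exact Finset.mem_range.2 hi.2
    _ ≤ Real.exp |z * x| := Real.sum_le_exp_of_nonneg (abs_nonneg _) _

/-- `t^N/N! ≤ 1` for `3 t ≤ N` -/
lemma pow_fact_le_one {N : ℕ} {t : ℝ} (ht : 0 ≤ t) (h : 3 * t ≤ N) :
    t ^ N / (N.factorial : ℝ) ≤ 1 := by
  have h1 : (3 * t) ^ N / (N.factorial : ℝ) ≤ Real.exp (3 * t) :=
    Real.pow_div_factorial_le_exp (3 * t) (by positivity) N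
  have h2 : Real.exp (3 * t) ≤ 3 ^ N := by
    calc Real.exp (3 * t) ≤ Real.exp (N * 1) := by
          rw [mul_one]
          exact Real.exp_le_exp.2 h
      _ = Real.exp 1 ^ N := by rw [Real.exp_nat_mul]
      _ ≤ 3 ^ N := by
          refine pow_le_pow_left₀ (Real.exp_pos _).le ?_ N
          have := Real.exp_one_lt_d9
          linarith
  have h3 : t ^ N / (N.factorial : ℝ) = (3 * t) ^ N / (N.factorial : ℝ) / 3 ^ N := by
    rw [mul_pow]
    field_simp
  rw [h3, div_le_one (by positivity)]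
  exact h1.trans h2

/-- `t^N/N! e^t ≤ 1` for `6 t ≤ N` -/
lemma pow_fact_exp_le_one {N : ℕ} {t : ℝ} (ht : 0 ≤ t) (h : 6 * t ≤ N) :
    t ^ N / (N.factorial : ℝ) * Real.exp t ≤ 1 := by
  have h1 : (5 * t) ^ N / (N.factorial : ℝ) ≤ Real.exp (5 * t) :=
    Real.pow_div_factorial_le_exp (5 * t) (by positivity) N
  have h2 : Real.exp (6 * t) ≤ 5 ^ N := by
    calc Real.exp (6 * t) ≤ Real.exp (N * 1) := by
          rw [mul_one]
          exact Real.exp_le_exp.2 h
      _ = Real.exp 1 ^ N := by rw [Real.exp_nat_mul]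
      _ ≤ 5 ^ N := by
          refine pow_le_pow_left₀ (Real.exp_pos _).le ?_ N
          have := Real.exp_one_lt_d9
          linarith
  have h3 : t ^ N / (N.factorial : ℝ) = (5 * t) ^ N / (N.factorial : ℝ) / 5 ^ N := by
    rw [mul_pow]
    field_simp
  rw [h3, div_mul_eq_mul_div, div_le_one (by positivity)]
  calc (5 * t) ^ N / (N.factorial : ℝ) * Real.exp t ≤ Real.exp (5 * t) * Real.exp t :=
        mul_le_mul_of_nonneg_right h1 (Real.exp_pos _).le
    _ = Real.exp (6 * t) := by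
        rw [← Real.exp_add]
        congr 1
        ring
    _ ≤ 5 ^ N := h2

/-- `Gp - exp` on `[0, 3K]` -/
lemma Gp_sub_exp {z x K : ℝ} (a b : ℕ) {n k : ℕ} (hk : k ≤ n) (ht : 0 ≤ z * x)
    (ht2 : z * x ≤ 3 * K) (hb : 20 * K ≤ b) :
    |Gp z (a - k) (b - k) x - Real.exp (z * x)| ≤ 2 * Real.exp (3 * n) * (1 + 3 * K) ^ a := by
  have hK : 0 ≤ K := by linarith
  have h1K : (1 : ℝ) ≤ (1 + 3 * K) ^ a := one_le_pow₀ (by linarith)
  have hexp : (1 : ℝ) ≤ Real.exp (3 * n) := Real.one_le_exp (by positivity)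
  set t := z * x with htdef
  rcases Nat.lt_or_ge b (10 * n) with hbn | hbn
  · have h1 : |Gp z (a - k) (b - k) x - Real.exp t| ≤ 2 * Real.exp t := by
      calc |Gp z (a - k) (b - k) x - Real.exp t|
          ≤ |Gp z (a - k) (b - k) x| + |Real.exp t| := abs_sub _ _
        _ ≤ Real.exp t + Real.exp t := by
            refine add_le_add ?_ ?_
            · have := Gp_abs_le_exp z x (a - k) (b - k)
              rwa [← htdef, abs_of_nonneg ht] at this
            · rw [abs_of_nonneg (Real.exp_pos _).le]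
        _ = 2 * Real.exp t := by ring
    have h2 : Real.exp t ≤ Real.exp (3 * n) := by
      refine Real.exp_le_exp.2 (ht2.trans ?_)
      have : (b : ℝ) ≤ 10 * n := by exact_mod_cast hbn.le
      linarith
    calc |Gp z (a - k) (b - k) x - Real.exp t| ≤ 2 * Real.exp t := h1
      _ ≤ 2 * Real.exp (3 * n) := by linarith
      _ ≤ 2 * Real.exp (3 * n) * (1 + 3 * K) ^ a := le_mul_of_one_le_right (by positivity) h1K
  · have hcast : ((b - k : ℕ) : ℝ) = b - k := by
      rw [Nat.cast_sub (by omega)]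
    have h6 : 6 * t ≤ ((b - k : ℕ) : ℝ) := by
      rw [hcast]
      have h1 : (10 : ℝ) * n ≤ b := by exact_mod_cast hbn
      have h2 : (k : ℝ) ≤ n := by exact_mod_cast hk
      linarith
    have htail : Real.exp t - Sx (b - k) t ≤ 1 :=
      (exp_sub_Sx_le (b - k) ht).trans (pow_fact_exp_le_one ht h6)
    have htail0 : 0 ≤ Real.exp t - Sx (b - k) t := sub_nonneg.2 (Sx_le_exp _ ht)
    have hSa : Sx (a - k) t ≤ (1 + 3 * K) ^ a := by
      calc Sx (a - k) t ≤ (1 + t) ^ (a - k) := Sx_le_pow _ ht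
        _ ≤ (1 + 3 * K) ^ (a - k) := pow_le_pow_left₀ (by linarith) (by linarith) _
        _ ≤ (1 + 3 * K) ^ a := pow_le_pow_right₀ (by linarith) (Nat.sub_le _ _)
    have key : |Gp z (a - k) (b - k) x - Real.exp t| ≤ Sx (a - k) t +
        (Real.exp t - Sx (b - k) t) := by
      rcases Nat.le_total (a - k) (b - k) with h | h
      · rw [Gp_eq z h, ← htdef]
        have e1 : Sx (b - k) t - Sx (a - k) t - Real.exp t =
            -(Sx (a - k) t + (Real.exp t - Sx (b - k) t)) := by ring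
        rw [e1, abs_neg, abs_of_nonneg (add_nonneg (Sx_nonneg _ ht) htail0)]
      · rw [Gp_empty z h, zero_sub, abs_neg, abs_of_nonneg (Real.exp_pos _).le]
        have := Sx_mono h ht
        linarith
    calc |Gp z (a - k) (b - k) x - Real.exp t| ≤ (1 + 3 * K) ^ a + 1 := by linarith
      _ ≤ 2 * 1 * (1 + 3 * K) ^ a := by linarith
      _ ≤ 2 * Real.exp (3 * n) * (1 + 3 * K) ^ a := by
          refine mul_le_mul_of_nonneg_right ?_ (by positivity)
          linarith

/-- `Gp (-x)` -/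
lemma Gp_neg_bd {z x K : ℝ} (a b : ℕ) {n k : ℕ} (hk : k ≤ n) (ht : 0 ≤ z * x)
    (ht2 : z * x ≤ 3 * K) (hb : 10 * K ≤ b) :
    |Gp z (a - k) (b - k) (-x)| ≤ 3 * Real.exp (3 * n) * (1 + 3 * K) ^ a := by
  have hK : 0 ≤ K := by linarith
  have h1K : (1 : ℝ) ≤ (1 + 3 * K) ^ a := one_le_pow₀ (by linarith)
  have hexp : (1 : ℝ) ≤ Real.exp (3 * n) := Real.one_le_exp (by positivity)
  have hnx : z * -x = -(z * x) := by ring
  set t := z * x with htdef
  rcases Nat.lt_or_ge b (10 * n) with hbn | hbn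
  · have h1 : |Gp z (a - k) (b - k) (-x)| ≤ Real.exp t := by
      have := Gp_abs_le_exp z (-x) (a - k) (b - k)
      rwa [hnx, abs_neg, abs_of_nonneg ht] at this
    have h2 : Real.exp t ≤ Real.exp (3 * n) := by
      refine Real.exp_le_exp.2 (ht2.trans ?_)
      have : (b : ℝ) ≤ 10 * n := by exact_mod_cast hbn.le
      linarith
    calc |Gp z (a - k) (b - k) (-x)| ≤ Real.exp (3 * n) := h1.trans h2
      _ ≤ 3 * Real.exp (3 * n) := by linarith
      _ ≤ 3 * Real.exp (3 * n) * (1 + 3 * K) ^ a := le_mul_of_one_le_right (by positivity) h1K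
  · have hcast : ((b - k : ℕ) : ℝ) = b - k := by
      rw [Nat.cast_sub (by omega)]
    have h6 : 3 * t ≤ ((b - k : ℕ) : ℝ) := by
      rw [hcast]
      have h1 : (10 : ℝ) * n ≤ b := by exact_mod_cast hbn
      have h2 : (k : ℝ) ≤ n := by exact_mod_cast hk
      linarith
    have hSa : |Sx (a - k) (-t)| ≤ (1 + 3 * K) ^ a := by
      calc |Sx (a - k) (-t)| ≤ Sx (a - k) |-t| := Sx_abs_le _ _
        _ = Sx (a - k) t := by rw [abs_neg, abs_of_nonneg ht]
        _ ≤ (1 + t) ^ (a - k) := Sx_le_pow _ ht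
        _ ≤ (1 + 3 * K) ^ (a - k) := pow_le_pow_left₀ (by linarith) (by linarith) _
        _ ≤ (1 + 3 * K) ^ a := pow_le_pow_right₀ (by linarith) (Nat.sub_le _ _)
    have hSb : |Sx (b - k) (-t)| ≤ 2 := by
      have h1 := exp_neg_sub_Sx (b - k) t ht
      have h2 := pow_fact_le_one ht h6
      have h3 : Real.exp (-t) ≤ 1 := Real.exp_le_one_iff.2 (by linarith)
      have h4 := Real.exp_pos (-t)
      have h5 := abs_le.1 (h1.trans h2)
      rw [abs_le]
      constructor <;> linarith [h5.1, h5.2]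
    rcases Nat.le_total (a - k) (b - k) with h | h
    · rw [Gp_eq z h, hnx]
      calc |Sx (b - k) (-t) - Sx (a - k) (-t)| ≤ |Sx (b - k) (-t)| + |Sx (a - k) (-t)| :=
            abs_sub _ _
        _ ≤ 2 + (1 + 3 * K) ^ a := add_le_add hSb hSa
        _ ≤ 3 * 1 * (1 + 3 * K) ^ a := by linarith
        _ ≤ 3 * Real.exp (3 * n) * (1 + 3 * K) ^ a := by
            refine mul_le_mul_of_nonneg_right ?_ (by positivity)
            linarith
    · rw [Gp_empty z h, abs_zero]
      positivity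

/-! ### the windows -/

section

variable {Y : ℕ}

lemma logY_pos (hY : 3 ≤ Y) : 0 < Real.log Y := by
  apply Real.log_pos
  exact_mod_cast (by omega : 1 < Y)

lemma wj_pos (hY : 3 ≤ Y) (j : ℕ) : 0 < wj Y j := by
  have := logY_pos hY
  unfold wj
  positivity

lemma wj_succ (Y j : ℕ) : wj Y j = 2 * wj Y (j + 1) := by
  unfold wj
  rw [pow_succ]
  have : (2 : ℝ) ^ j ≠ 0 := by positivity
  field_simp

lemma Wn_smooth (Y j n : ℕ) : ContDiff ℝ n (Wn Y j) :=
  (eta_scale_smooth n _).sub (eta_scale_smooth n _)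

lemma psi_smooth (Y n : ℕ) : ContDiff ℝ n (psi Y) :=
  (eta_scale_smooth n _).mul (contDiff_const.sub (eta_scale_smooth n _))

lemma Wn_zero (hY : 3 ≤ Y) (j : ℕ) (x : ℝ) (hx : x < wj Y (j + 1) ∨ 4 * wj Y (j + 1) < x) :
    Wn Y j x = 0 := by
  have hw := wj_pos hY (j + 1)
  have h2 := wj_succ Y j
  unfold Wn
  rcases hx with hx | hx
  · rw [eta_zero ((div_le_one hw).2 hx.le), eta_zero, sub_zero]
    rw [h2, div_le_one (by positivity)]
    linarith
  · rw [eta_one, eta_one, sub_self]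
    · rw [h2, le_div_iff₀ (by positivity)]
      linarith
    · rw [le_div_iff₀ hw]
      linarith

lemma psi_zero (hY : 3 ≤ Y) (x : ℝ) (hx : x < wj Y 0 ∨ 3 * Real.log Y < x) : psi Y x = 0 := by
  have hw := wj_pos hY 0
  have hL := logY_pos hY
  unfold psi
  rcases hx with hx | hx
  · rw [eta_zero ((div_le_one hw).2 hx.le), zero_mul]
  · rw [eta_one (t := x / (3 / 2 * Real.log Y)), sub_self, mul_zero]
    rw [le_div_iff₀ (by positivity)]
    linarith

lemma Wn_bd (hY : 3 ≤ Y) {n : ℕ} {C : ℝ} (hC : ∀ k ≤ n, ∀ t, |iteratedDeriv k ηf t| ≤ C) (j k : ℕ)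
    (hk : k ≤ n) (x : ℝ) : |iteratedDeriv k (Wn Y j) x| ≤ 2 * C * (wj Y (j + 1))⁻¹ ^ k := by
  have hw := wj_pos hY (j + 1)
  have h2 := wj_succ Y j
  have hC0 : 0 ≤ C := (abs_nonneg _).trans (hC k hk 0)
  have h3 : iteratedDeriv k (Wn Y j) x = iteratedDeriv k (fun x => ηf (x / wj Y (j + 1))) x -
      iteratedDeriv k (fun x => ηf (x / wj Y j)) x :=
    iteratedDeriv_sub (eta_scale_smooth k _).contDiffAt (eta_scale_smooth k _).contDiffAt
  rw [h3]
  have e1 := eta_scale_bd hC hw k hk x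
  have e2 := eta_scale_bd hC (wj_pos hY j) k hk x
  have e3 : (wj Y j)⁻¹ ^ k ≤ (wj Y (j + 1))⁻¹ ^ k := by
    refine pow_le_pow_left₀ (inv_nonneg.2 (wj_pos hY j).le) ?_ k
    rw [h2]
    exact inv_anti₀ hw (by linarith)
  calc |iteratedDeriv k (fun x => ηf (x / wj Y (j + 1))) x -
      iteratedDeriv k (fun x => ηf (x / wj Y j)) x|
      ≤ |iteratedDeriv k (fun x => ηf (x / wj Y (j + 1))) x| +
        |iteratedDeriv k (fun x => ηf (x / wj Y j)) x| := abs_sub _ _
    _ ≤ C * (wj Y (j + 1))⁻¹ ^ k + C * (wj Y (j + 1))⁻¹ ^ k :=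
        add_le_add e1 (e2.trans (mul_le_mul_of_nonneg_left e3 hC0))
    _ = 2 * C * (wj Y (j + 1))⁻¹ ^ k := by ring

lemma psi_bd (hY : 3 ≤ Y) {n : ℕ} {C : ℝ} (hC : ∀ k ≤ n, ∀ t, |iteratedDeriv k ηf t| ≤ C) (k : ℕ)
    (hk : k ≤ n) (x : ℝ) :
    |iteratedDeriv k (psi Y) x| ≤ 2 ^ n * (C * (1 + C)) * (wj Y 0)⁻¹ ^ k := by
  have hw := wj_pos hY 0
  have hL := logY_pos hY
  have hC0 : 0 ≤ C := (abs_nonneg _).trans (hC k hk 0)
  refine mul_bd (eta_scale_smooth n _) (contDiff_const.sub (eta_scale_smooth n _)) hw hC0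
    (by linarith) x (fun k hk => eta_scale_bd hC hw k hk x) (fun k hk => ?_) k hk
  have h3 : iteratedDeriv k (fun x => 1 - ηf (x / (3 / 2 * Real.log Y))) x =
      iteratedDeriv k (fun _ => (1 : ℝ)) x -
      iteratedDeriv k (fun x => ηf (x / (3 / 2 * Real.log Y))) x :=
    iteratedDeriv_sub contDiffAt_const (eta_scale_smooth k _).contDiffAt
  rw [h3, iteratedDeriv_const]
  have e2 := eta_scale_bd hC (by positivity : 0 < 3 / 2 * Real.log Y) k hk x
  have e3 : (3 / 2 * Real.log Y)⁻¹ ^ k ≤ (wj Y 0)⁻¹ ^ k := by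
    refine pow_le_pow_left₀ (by positivity) ?_ k
    refine inv_anti₀ hw ?_
    unfold wj
    rw [pow_zero, mul_one]
    linarith
  have e4 : |(if k = 0 then (1 : ℝ) else 0)| ≤ (wj Y 0)⁻¹ ^ k := by
    split_ifs with h
    · subst h
      simp
    · rw [abs_zero]
      positivity
  calc |(if k = 0 then (1 : ℝ) else 0) - iteratedDeriv k (fun x => ηf (x / (3 / 2 * Real.log Y))) x|
      ≤ |(if k = 0 then (1 : ℝ) else 0)| +
        |iteratedDeriv k (fun x => ηf (x / (3 / 2 * Real.log Y))) x| := abs_sub _ _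
    _ ≤ (wj Y 0)⁻¹ ^ k + C * (wj Y 0)⁻¹ ^ k :=
        add_le_add e4 (e2.trans (mul_le_mul_of_nonneg_left e3 hC0))
    _ = (1 + C) * (wj Y 0)⁻¹ ^ k := by ring

/-- the bound of `Gp` in the near windows -/
lemma near_aux (hY : 3 ≤ Y) (j a b : ℕ) {K : ℝ} (hK : 1 ≤ K) {n k : ℕ} (hk : k ≤ n) (x y : ℝ)
    (hxy : |y| = x) (h1 : wj Y (j + 1) ≤ x) (h2 : x ≤ 4 * wj Y (j + 1)) :
    |(K / Real.log Y) ^ k * Gp (K / Real.log Y) (a - k) (b - k) y| ≤
      K ^ n * (K / 2 ^ j) ^ a * Real.exp (K / 10) * (wj Y (j + 1))⁻¹ ^ k := by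
  have hw := wj_pos hY (j + 1)
  have hL := logY_pos hY
  have hx : 0 < x := lt_of_lt_of_le hw h1
  set z := K / Real.log Y with hz
  have hz0 : 0 < z := by positivity
  have h2j : (0 : ℝ) < 2 ^ j := by positivity
  have h2j1 : (1 : ℝ) ≤ 2 ^ j := one_le_pow₀ (by norm_num)
  have hq0 : 0 ≤ K / 2 ^ j := by positivity
  have hqK : K / 2 ^ j ≤ K := div_le_self (by linarith) h2j1
  have hzx : z * x ≤ K / 2 ^ j / 10 := by
    calc z * x ≤ z * (4 * wj Y (j + 1)) := mul_le_mul_of_nonneg_left h2 hz0.le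
      _ = K / 2 ^ j / 10 := by
          rw [hz]
          unfold wj
          rw [pow_succ]
          field_simp
          norm_num
  have hzw : z * wj Y (j + 1) ≤ K / 2 ^ j := by
    calc z * wj Y (j + 1) ≤ z * x := mul_le_mul_of_nonneg_left h1 hz0.le
      _ ≤ K / 2 ^ j := by linarith
  have habs : |z * y| = z * x := by rw [abs_mul, abs_of_pos hz0, hxy]
  have e1 := Gp_abs_le z y (a - k) (b - k)
  rw [habs] at e1
  rw [abs_mul, abs_of_nonneg (by positivity : 0 ≤ z ^ k)]
  have e2 : (z * x) ^ (a - k) ≤ (K / 2 ^ j) ^ (a - k) :=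
    pow_le_pow_left₀ (by positivity) (by linarith) _
  have e3 : Real.exp (z * x) ≤ Real.exp (K / 10) := by
    refine Real.exp_le_exp.2 (hzx.trans ?_)
    linarith
  have e4 : (z * wj Y (j + 1)) ^ k * (K / 2 ^ j) ^ (a - k) ≤ K ^ n * (K / 2 ^ j) ^ a := by
    calc (z * wj Y (j + 1)) ^ k * (K / 2 ^ j) ^ (a - k)
        ≤ (K / 2 ^ j) ^ k * (K / 2 ^ j) ^ (a - k) :=
          mul_le_mul_of_nonneg_right (pow_le_pow_left₀ (by positivity) hzw k) (by positivity)
      _ = (K / 2 ^ j) ^ (k - a) * (K / 2 ^ j) ^ a := by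
          rw [← pow_add, ← pow_add]
          congr 1
          omega
      _ ≤ K ^ n * (K / 2 ^ j) ^ a := by
          refine mul_le_mul_of_nonneg_right ?_ (by positivity)
          calc (K / 2 ^ j) ^ (k - a) ≤ K ^ (k - a) := pow_le_pow_left₀ hq0 hqK _
            _ ≤ K ^ n := pow_le_pow_right₀ hK (by omega)
  have e5 : z ^ k = (z * wj Y (j + 1)) ^ k * (wj Y (j + 1))⁻¹ ^ k := by
    rw [← mul_pow, mul_assoc, mul_inv_cancel₀ hw.ne', mul_one]
  calc z ^ k * |Gp z (a - k) (b - k) y|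
      ≤ z ^ k * ((K / 2 ^ j) ^ (a - k) * Real.exp (K / 10)) := by
        refine mul_le_mul_of_nonneg_left ?_ (by positivity)
        exact e1.trans (mul_le_mul e2 e3 (Real.exp_pos _).le (by positivity))
    _ = (z * wj Y (j + 1)) ^ k * (K / 2 ^ j) ^ (a - k) * Real.exp (K / 10) *
          (wj Y (j + 1))⁻¹ ^ k := by
        rw [e5]
        ring
    _ ≤ K ^ n * (K / 2 ^ j) ^ a * Real.exp (K / 10) * (wj Y (j + 1))⁻¹ ^ k := by
        refine mul_le_mul_of_nonneg_right ?_ (by positivity)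
        exact mul_le_mul_of_nonneg_right e4 (Real.exp_pos _).le

lemma zw_pow (hY : 3 ≤ Y) {K : ℝ} (hK : 1 ≤ K) {n k : ℕ} (hk : k ≤ n) :
    (K / Real.log Y) ^ k ≤ (1 + 3 * K) ^ n * (wj Y 0)⁻¹ ^ k := by
  have hw := wj_pos hY 0
  have hL := logY_pos hY
  have e5 : (K / Real.log Y) ^ k = (K / Real.log Y * wj Y 0) ^ k * (wj Y 0)⁻¹ ^ k := by
    rw [← mul_pow, mul_assoc, mul_inv_cancel₀ hw.ne', mul_one]
  rw [e5]
  refine mul_le_mul_of_nonneg_right ?_ (by positivity)
  have h1 : K / Real.log Y * wj Y 0 ≤ 1 + 3 * K := by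
    have : K / Real.log Y * wj Y 0 = K / 20 := by
      unfold wj
      rw [pow_zero, mul_one]
      field_simp
    rw [this]
    linarith
  calc (K / Real.log Y * wj Y 0) ^ k ≤ (1 + 3 * K) ^ k :=
        pow_le_pow_left₀ (by positivity) h1 k
    _ ≤ (1 + 3 * K) ^ n := pow_le_pow_right₀ (by linarith) hk

end

end Wf

open Wf

/-- Module I1. -/
theorem pfWf : StWf where
  smooth := fun Y j n _ => ⟨Wn_smooth Y j n, psi_smooth Y n⟩
  near := by
    intro n
    obtain ⟨C, hC1, hC⟩ := eta_bd' n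
    refine ⟨2 ^ n * (2 * C), ?_, ?_⟩
    · have : (1 : ℝ) ≤ 2 ^ n := one_le_pow₀ (by norm_num)
      nlinarith
    intro Y j a b K hY hK i hi x
    have hw := wj_pos hY (j + 1)
    have hG0 : 0 ≤ K ^ n * (K / 2 ^ j) ^ a * Real.exp (K / 10) := by positivity
    constructor
    · have h := mul_bd_supp (Wn_smooth Y j n) (Gp_smooth (K / Real.log Y) a b n) hw
        (by positivity : 0 ≤ 2 * C) hG0 (Wn_zero hY j) (fun k hk x => Wn_bd hY hC j k hk x)
        (fun k hk x hx1 hx2 => by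
          rw [Gp_iter]
          exact near_aux hY j a b hK hk x x (abs_of_pos (lt_of_lt_of_le hw hx1)) hx1 hx2) i hi x
      refine h.trans (le_of_eq ?_)
      ring
    · have h := mul_bd_supp (Wn_smooth Y j n) (Gp_neg_smooth (K / Real.log Y) a b n) hw
        (by positivity : 0 ≤ 2 * C) hG0 (Wn_zero hY j) (fun k hk x => Wn_bd hY hC j k hk x)
        (fun k hk x hx1 hx2 => by
          rw [Gp_neg_iter]
          refine near_aux hY j a b hK hk x (-x) ?_ hx1 hx2
          rw [abs_neg, abs_of_pos (lt_of_lt_of_le hw hx1)]) i hi x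
      refine h.trans (le_of_eq ?_)
      ring
  outer := by
    intro n
    obtain ⟨C, hC1, hC⟩ := eta_bd' n
    have hE : (1 : ℝ) ≤ Real.exp (3 * n) := Real.one_le_exp (by positivity)
    have h2n : (1 : ℝ) ≤ 2 ^ n := one_le_pow₀ (by norm_num)
    refine ⟨2 ^ n * (2 ^ n * (C * (1 + C)) * (3 * Real.exp (3 * n))), ?_, ?_⟩
    · have h3 : (1 : ℝ) ≤ C * (1 + C) := by nlinarith
      have h4 : (1 : ℝ) ≤ 2 ^ n * (C * (1 + C)) := by nlinarith
      have h5 : (1 : ℝ) ≤ 3 * Real.exp (3 * n) := by linarith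
      have h6 : (1 : ℝ) ≤ 2 ^ n * (C * (1 + C)) * (3 * Real.exp (3 * n)) := by nlinarith
      nlinarith
    intro Y a b K hY hK i hi x
    have hw := wj_pos hY 0
    have hL := logY_pos hY
    have hF0 : 0 ≤ 2 ^ n * (C * (1 + C)) := by positivity
    have hz0 : 0 < K / Real.log Y := by positivity
    have hzx : ∀ x, wj Y 0 ≤ x → x ≤ 3 * Real.log Y → 0 ≤ K / Real.log Y * x ∧
        K / Real.log Y * x ≤ 3 * K := by
      intro x hx1 hx2
      refine ⟨mul_nonneg hz0.le (hw.le.trans hx1), ?_⟩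
      calc K / Real.log Y * x ≤ K / Real.log Y * (3 * Real.log Y) :=
            mul_le_mul_of_nonneg_left hx2 hz0.le
        _ = 3 * K := by field_simp
    refine ⟨?_, ?_, ?_⟩
    · intro hb
      have hs : ContDiff ℝ n (fun x => Gp (K / Real.log Y) a b x - Real.exp (K / Real.log Y * x)) :=
        (Gp_smooth _ a b n).sub (Real.contDiff_exp.comp (contDiff_const.mul contDiff_id))
      have hG0 : 0 ≤ 3 * Real.exp (3 * n) * (1 + 3 * K) ^ (a + n) := by positivity
      have h := mul_bd_supp (psi_smooth Y n) hs hw hF0 hG0 (psi_zero hY)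
        (fun k hk x => psi_bd hY hC k hk x)
        (fun k hk x hx1 hx2 => by
          obtain ⟨ht1, ht2⟩ := hzx x hx1 hx2
          have e0 : iteratedDeriv k (fun x => Gp (K / Real.log Y) a b x -
              Real.exp (K / Real.log Y * x)) x = (K / Real.log Y) ^ k *
              (Gp (K / Real.log Y) (a - k) (b - k) x - Real.exp (K / Real.log Y * x)) := by
            have e1 : iteratedDeriv k (fun x => Gp (K / Real.log Y) a b x -
              Real.exp (K / Real.log Y * x)) x = iteratedDeriv k (Gp (K / Real.log Y) a b) x -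
              iteratedDeriv k (fun x => Real.exp (K / Real.log Y * x)) x :=
              iteratedDeriv_sub (Gp_smooth _ a b k).contDiffAt
                (Real.contDiff_exp.comp (contDiff_const.mul contDiff_id)).contDiffAt
            rw [e1, Gp_iter, iteratedDeriv_exp_const_mul]
            ring
          rw [e0, abs_mul, abs_of_nonneg (by positivity : 0 ≤ (K / Real.log Y) ^ k)]
          calc (K / Real.log Y) ^ k * |Gp (K / Real.log Y) (a - k) (b - k) x -
                Real.exp (K / Real.log Y * x)|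
              ≤ ((1 + 3 * K) ^ n * (wj Y 0)⁻¹ ^ k) * (2 * Real.exp (3 * n) * (1 + 3 * K) ^ a) :=
                mul_le_mul (zw_pow hY hK hk) (Gp_sub_exp a b hk ht1 ht2 hb) (abs_nonneg _)
                  (by positivity)
            _ = 2 * Real.exp (3 * n) * ((1 + 3 * K) ^ (a + n) * (wj Y 0)⁻¹ ^ k) := by
                rw [pow_add]
                ring
            _ ≤ 3 * Real.exp (3 * n) * ((1 + 3 * K) ^ (a + n) * (wj Y 0)⁻¹ ^ k) := by
                refine mul_le_mul_of_nonneg_right ?_ (by positivity)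
                linarith
            _ = 3 * Real.exp (3 * n) * (1 + 3 * K) ^ (a + n) * (wj Y 0)⁻¹ ^ k := by ring) i hi x
      refine h.trans (le_of_eq ?_)
      ring
    · intro hb
      have hG0 : 0 ≤ 3 * Real.exp (3 * n) * (1 + 3 * K) ^ (a + n) := by positivity
      have h := mul_bd_supp (psi_smooth Y n) (Gp_neg_smooth (K / Real.log Y) a b n) hw hF0 hG0
        (psi_zero hY) (fun k hk x => psi_bd hY hC k hk x)
        (fun k hk x hx1 hx2 => by
          obtain ⟨ht1, ht2⟩ := hzx x hx1 hx2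
          rw [Gp_neg_iter, abs_mul, abs_of_nonneg (by positivity : 0 ≤ (K / Real.log Y) ^ k)]
          calc (K / Real.log Y) ^ k * |Gp (K / Real.log Y) (a - k) (b - k) (-x)|
              ≤ ((1 + 3 * K) ^ n * (wj Y 0)⁻¹ ^ k) * (3 * Real.exp (3 * n) * (1 + 3 * K) ^ a) :=
                mul_le_mul (zw_pow hY hK hk) (Gp_neg_bd a b hk ht1 ht2 hb) (abs_nonneg _)
                  (by positivity)
            _ = 3 * Real.exp (3 * n) * (1 + 3 * K) ^ (a + n) * (wj Y 0)⁻¹ ^ k := by
                rw [pow_add]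
                ring) i hi x
      refine h.trans (le_of_eq ?_)
      ring
    · have hG0 : 0 ≤ (1 + 3 * K) ^ n * Real.exp (3 * K) := by positivity
      have h := mul_bd_supp (psi_smooth Y n) (Gp_neg_smooth (K / Real.log Y) a b n) hw hF0 hG0
        (psi_zero hY) (fun k hk x => psi_bd hY hC k hk x)
        (fun k hk x hx1 hx2 => by
          obtain ⟨ht1, ht2⟩ := hzx x hx1 hx2
          rw [Gp_neg_iter, abs_mul, abs_of_nonneg (by positivity : 0 ≤ (K / Real.log Y) ^ k)]
          have e1 : |Gp (K / Real.log Y) (a - k) (b - k) (-x)| ≤ Real.exp (3 * K) := by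
            have := Gp_abs_le_exp (K / Real.log Y) (-x) (a - k) (b - k)
            rw [mul_neg, abs_neg, abs_of_nonneg ht1] at this
            exact this.trans (Real.exp_le_exp.2 ht2)
          calc (K / Real.log Y) ^ k * |Gp (K / Real.log Y) (a - k) (b - k) (-x)|
              ≤ ((1 + 3 * K) ^ n * (wj Y 0)⁻¹ ^ k) * Real.exp (3 * K) :=
                mul_le_mul (zw_pow hY hK hk) e1 (abs_nonneg _) (by positivity)
            _ = (1 + 3 * K) ^ n * Real.exp (3 * K) * (wj Y 0)⁻¹ ^ k := by ring) i hi x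
      refine h.trans ?_
      have hE3 : (1 : ℝ) ≤ 3 * Real.exp (3 * n) := by linarith
      have hP : 0 ≤ 2 ^ n * (2 ^ n * (C * (1 + C))) * ((1 + 3 * K) ^ n * Real.exp (3 * K)) *
          (wj Y 0)⁻¹ ^ i := by positivity
      calc 2 ^ n * (2 ^ n * (C * (1 + C)) * ((1 + 3 * K) ^ n * Real.exp (3 * K))) * (wj Y 0)⁻¹ ^ i
          = 2 ^ n * (2 ^ n * (C * (1 + C))) * ((1 + 3 * K) ^ n * Real.exp (3 * K)) *
            (wj Y 0)⁻¹ ^ i * 1 := by ring
        _ ≤ 2 ^ n * (2 ^ n * (C * (1 + C))) * ((1 + 3 * K) ^ n * Real.exp (3 * K)) *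
            (wj Y 0)⁻¹ ^ i * (3 * Real.exp (3 * n)) := mul_le_mul_of_nonneg_left hE3 hP
        _ = 2 ^ n * (2 ^ n * (C * (1 + C)) * (3 * Real.exp (3 * n))) * (1 + 3 * K) ^ n *
            Real.exp (3 * K) * (wj Y 0)⁻¹ ^ i := by ring

end P004
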