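import Vale.Agent.P004.H394.RepDefs
import Vale.Agent.P004.H394.Wf
import Vale.Agent.P004.H628.Four

/-!
# P004, module W: Fourier representations of the weights (proofs)
-/

open Real MeasureTheory Set

namespace P004

namespace Moll

open Wf

lemma iter_zero {a b : ℝ} {k : ℝ → ℝ} (hs : ∀ x, x < a ∨ b < x → k x = 0) (i : ℕ) (x : ℝ)
    (hx : x < a ∨ b < x) : iteratedDeriv i k x = 0 := by
  have hz : k =ᶠ[nhds x] fun _ => (0 : ℝ) := by
    rcases hx with h | h
    · filter_upwards [Iio_mem_nhds h] with y hy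
      exact hs y (Or.inl hy)
    · filter_upwards [Ioi_mem_nhds h] with y hy
      exact hs y (Or.inr hy)
  rw [hz.iteratedDeriv_eq, iteratedDeriv_const]
  simp

lemma rep_of_bd (hF : StFour) (B : ℕ) : ∃ C : ℝ, 1 ≤ C ∧ ∀ (w E J : ℝ) (k φ : ℝ → ℝ), 0 < w →
    0 ≤ E → 0 ≤ J → ContDiff ℝ (B + 2 : ℕ) k → Integrable φ → (∫ x, φ x) ≤ J →
    (∀ i ≤ B + 2, ∀ x, |iteratedDeriv i k x| ≤ E * w⁻¹ ^ i * φ x) →
    Rep B w (C * (E * J / w)) k := by
  obtain ⟨C, hC1, hC⟩ := hF B
  refine ⟨2 * C, by linarith, ?_⟩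
  intro w E J k φ hw hE hJ hk hφ hφJ hb
  have hint : ∀ i ≤ B + 2, Integrable (iteratedDeriv i k) := by
    intro i hi
    refine Integrable.mono' (hφ.const_mul (E * w⁻¹ ^ i)) ?_ ?_
    · exact (hk.continuous_iteratedDeriv i (by exact_mod_cast hi)).aestronglyMeasurable
    · exact Filter.Eventually.of_forall fun x => by
        rw [Real.norm_eq_abs]
        exact hb i hi x
  have hI : ∀ i ≤ B + 2, (∫ x, |iteratedDeriv i k x|) ≤ E * w⁻¹ ^ i * J := by
    intro i hi
    calc (∫ x, |iteratedDeriv i k x|) ≤ ∫ x, E * w⁻¹ ^ i * φ x :=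
          integral_mono (hint i hi).abs (hφ.const_mul _) (hb i hi)
      _ = E * w⁻¹ ^ i * ∫ x, φ x := integral_const_mul _ _
      _ ≤ E * w⁻¹ ^ i * J := mul_le_mul_of_nonneg_left hφJ (by positivity)
  have h0 := hI 0 (Nat.zero_le _)
  simp only [iteratedDeriv_zero, pow_zero, mul_one] at h0
  obtain ⟨g, hg1, hg2, hg3, hg4, hg5⟩ := hC w (E * J) (E * w⁻¹ ^ (B + 2) * J) k hw hk hint h0
    (hI (B + 2) le_rfl)
  refine ⟨g, hg1, hg2, hg3, hg4, hg5.trans (le_of_eq ?_)⟩
  rw [inv_pow]
  have : w ^ (B + 2) = w ^ (B + 1) * w := by ring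
  rw [this]
  field_simp
  ring

lemma iter_exp (a : ℝ) (i : ℕ) (x : ℝ) :
    iteratedDeriv i (fun x => Real.exp (a * x)) x = a ^ i * Real.exp (a * x) := by
  rw [iteratedDeriv_exp_const_mul]

lemma exp_smooth (a : ℝ) (n : ℕ) : ContDiff ℝ n (fun x => Real.exp (a * x)) :=
  Real.contDiff_exp.comp (contDiff_const.mul contDiff_id)

/-- the windows -/
theorem repC (hF : StFour) : StRepC := by
  intro B
  obtain ⟨C, hC1, hC⟩ := rep_of_bd hF B
  refine ⟨C * (2 ^ (B + 2) * 60), ?_, ?_⟩
  · have : (1 : ℝ) ≤ 2 ^ (B + 2) := one_le_pow₀ (by norm_num)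
    nlinarith
  intro Y j h b hY hb hh hs hder
  have hw := wj_pos hY j
  have hL := logY_pos hY
  have h2j : (1 : ℝ) ≤ 2 ^ j := one_le_pow₀ (by norm_num)
  have hwL : wj Y j * (20 * 2 ^ j) = Real.log Y := by
    unfold wj
    field_simp
  have hwle : wj Y j ≤ Real.log Y := by
    rw [← hwL]
    nlinarith
  have hs' : ∀ x, x < wj Y j ∨ 3 * Real.log Y < x → h x = 0 := by
    intro x hx
    by_contra hne
    obtain ⟨h1, h2⟩ := hs x hne
    rcases hx with hx | hx <;> linarith
  set φ : ℝ → ℝ := (Icc (wj Y j) (3 * Real.log Y)).indicator fun _ => 1 with hφ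
  have hφi : Integrable φ := by
    rw [hφ, integrable_indicator_iff measurableSet_Icc]
    exact integrableOn_const (by simp)
  have hφJ : (∫ x, φ x) ≤ 3 * Real.log Y := by
    rw [hφ, integral_indicator measurableSet_Icc, setIntegral_const]
    simp only [Measure.real, Real.volume_Icc, smul_eq_mul, mul_one]
    rw [ENNReal.toReal_ofReal (by linarith)]
    linarith
  have hbd : ∀ i ≤ B + 2, ∀ x, |iteratedDeriv i (fun x => h x *
      Real.exp (-(1 / Real.log Y) * x)) x| ≤ (2 ^ (B + 2) * b) * (wj Y j)⁻¹ ^ i * φ x := by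
    intro i hi x
    by_cases hx : x ∈ Icc (wj Y j) (3 * Real.log Y)
    · have e1 : φ x = 1 := by
        rw [hφ, indicator_of_mem hx]
      rw [e1, mul_one]
      have h3 := mul_bd_supp (n := B + 2) (a := wj Y j) (b := 3 * Real.log Y) (F := b) (G := 1)
        hh (exp_smooth (-(1 / Real.log Y)) (B + 2)) hw hb zero_le_one hs'
        (fun k hk x => hder k hk x)
        (fun k hk x hx1 hx2 => by
          rw [iter_exp, abs_mul, abs_of_pos (Real.exp_pos _), abs_pow, abs_neg,
            abs_of_pos (by positivity : 0 < 1 / Real.log Y), one_mul]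
          have e2 : Real.exp (-(1 / Real.log Y) * x) ≤ 1 := by
            apply Real.exp_le_one_iff.2
            have : 0 ≤ 1 / Real.log Y * x := mul_nonneg (by positivity) (by linarith)
            linarith
          have e3 : (1 / Real.log Y) ^ k ≤ (wj Y j)⁻¹ ^ k := by
            refine pow_le_pow_left₀ (by positivity) ?_ k
            rw [one_div]
            exact inv_anti₀ hw hwle
          calc (1 / Real.log Y) ^ k * Real.exp (-(1 / Real.log Y) * x)
              ≤ (wj Y j)⁻¹ ^ k * 1 :=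
                mul_le_mul e3 e2 (Real.exp_pos _).le (by positivity)
            _ = (wj Y j)⁻¹ ^ k := mul_one _) i hi x
      refine h3.trans (le_of_eq ?_)
      ring
    · have e1 : φ x = 0 := by
        rw [hφ, indicator_of_notMem hx]
      rw [e1, mul_zero]
      have hx' : x < wj Y j ∨ 3 * Real.log Y < x := by
        rw [mem_Icc, not_and_or, not_le, not_le] at hx
        exact hx
      rw [iter_zero (a := wj Y j) (b := 3 * Real.log Y) (fun y hy => by
        simp only [hs' y hy, zero_mul]) i x hx', abs_zero]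
  have h4 := hC (wj Y j) (2 ^ (B + 2) * b) (3 * Real.log Y) _ φ hw (by positivity) (by positivity)
    (hh.mul (exp_smooth (-(1 / Real.log Y)) (B + 2))) hφi hφJ hbd
  obtain ⟨g, hg1, hg2, hg3, hg4, hg5⟩ := h4
  refine ⟨g, hg1, hg2, hg3, hg4, hg5.trans (le_of_eq ?_)⟩
  rw [← hwL]
  field_simp
  ring

/-- the inner cutoff -/
theorem repA (hF : StFour) : StRepA := by
  intro B
  obtain ⟨C, hC1, hC⟩ := rep_of_bd hF B
  obtain ⟨D, hD1, hD⟩ := eta_bd' (B + 2)
  refine ⟨C * (2 ^ (B + 2) * (1 + D) * 40), ?_, ?_⟩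
  · have h1 : (1 : ℝ) ≤ 2 ^ (B + 2) := one_le_pow₀ (by norm_num)
    have h2 : (1 : ℝ) ≤ 2 ^ (B + 2) * (1 + D) := by nlinarith
    nlinarith
  intro Y K hY hK
  have hw := wj_pos hY 0
  have hL := logY_pos hY
  have hK0 : 0 < K := by linarith
  have hwL : wj Y 0 * 20 = Real.log Y := by
    unfold wj
    rw [pow_zero, mul_one]
    field_simp
  set a := K / Real.log Y - 1 / (2 * Real.log Y) with ha
  have ha1 : 1 / (2 * Real.log Y) ≤ a := by
    rw [ha, le_sub_iff_add_le, ← two_mul, mul_one_div, div_le_div_iff₀ (by positivity) hL]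
    nlinarith
  have ha0 : 0 < a := lt_of_lt_of_le (by positivity) ha1
  have haK : a * wj Y 0 ≤ K / 20 := by
    calc a * wj Y 0 ≤ (K / Real.log Y) * wj Y 0 := by
          refine mul_le_mul_of_nonneg_right ?_ hw.le
          rw [ha]
          have : 0 < 1 / (2 * Real.log Y) := by positivity
          linarith
      _ = K / 20 := by
          rw [← hwL]
          field_simp
  have hk : (fun x => (1 - ηf (x / wj Y 0)) * Real.exp (K / Real.log Y * x) *
      Real.exp (-(1 / (2 * Real.log Y)) * x)) = fun x => (1 - ηf (x / wj Y 0)) *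
        Real.exp (a * x) := by
    funext x
    rw [mul_assoc, ← Real.exp_add]
    congr 2
    rw [ha]
    ring
  rw [hk]
  set φ : ℝ → ℝ := (Iic (2 * wj Y 0)).indicator fun x => Real.exp (a * x) with hφ
  have hφi : Integrable φ := by
    rw [hφ, integrable_indicator_iff measurableSet_Iic]
    exact integrableOn_exp_mul_Iic ha0 _
  have hφJ : (∫ x, φ x) ≤ Real.exp (K / 10) * (2 * Real.log Y) := by
    rw [hφ, integral_indicator measurableSet_Iic, integral_exp_mul_Iic ha0, div_le_iff₀ ha0]
    have h1 : Real.exp (a * (2 * wj Y 0)) ≤ Real.exp (K / 10) := by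
      refine Real.exp_le_exp.2 ?_
      linarith
    have h2 : 1 ≤ 2 * Real.log Y * a := by
      rw [div_le_iff₀ (by positivity)] at ha1
      linarith
    calc Real.exp (a * (2 * wj Y 0)) ≤ Real.exp (K / 10) * 1 := by rw [mul_one]; exact h1
      _ ≤ Real.exp (K / 10) * (2 * Real.log Y * a) := by gcongr
      _ = _ := by ring
  have hs' : ∀ x, x < x - 1 ∨ 2 * wj Y 0 < x → (1 - ηf (x / wj Y 0)) * Real.exp (a * x) = 0 := by
    intro x hx
    rcases hx with hx | hx
    · linarith
    · rw [eta_one, sub_self, zero_mul]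
      rw [le_div_iff₀ hw]
      linarith
  have hsm : ContDiff ℝ (B + 2 : ℕ) (fun x => 1 - ηf (x / wj Y 0)) :=
    contDiff_const.sub (eta_scale_smooth (B + 2) _)
  have hbd : ∀ i ≤ B + 2, ∀ x, |iteratedDeriv i (fun x => (1 - ηf (x / wj Y 0)) *
      Real.exp (a * x)) x| ≤ (2 ^ (B + 2) * (1 + D) * K ^ (B + 2)) * (wj Y 0)⁻¹ ^ i * φ x := by
    intro i hi x
    by_cases hx : x ∈ Iic (2 * wj Y 0)
    · have e1 : φ x = Real.exp (a * x) := by
        rw [hφ, indicator_of_mem hx]
      rw [e1]
      have h3 := mul_bd (n := B + 2) (F := 1 + D) (G := K ^ (B + 2) * Real.exp (a * x)) hsm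
        (exp_smooth a (B + 2)) hw (by linarith) (by positivity) x
        (fun k hk => by
          have h3 : iteratedDeriv k (fun x => 1 - ηf (x / wj Y 0)) x =
              iteratedDeriv k (fun _ => (1 : ℝ)) x -
              iteratedDeriv k (fun x => ηf (x / wj Y 0)) x :=
            iteratedDeriv_sub contDiffAt_const (eta_scale_smooth k _).contDiffAt
          rw [h3, iteratedDeriv_const]
          have e2 := eta_scale_bd hD hw k hk x
          have e4 : |(if k = 0 then (1 : ℝ) else 0)| ≤ (wj Y 0)⁻¹ ^ k := by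
            split_ifs with h
            · subst h
              simp
            · rw [abs_zero]
              positivity
          calc |(if k = 0 then (1 : ℝ) else 0) - iteratedDeriv k (fun x => ηf (x / wj Y 0)) x|
              ≤ |(if k = 0 then (1 : ℝ) else 0)| +
                |iteratedDeriv k (fun x => ηf (x / wj Y 0)) x| := abs_sub _ _
            _ ≤ (wj Y 0)⁻¹ ^ k + D * (wj Y 0)⁻¹ ^ k := add_le_add e4 e2
            _ = (1 + D) * (wj Y 0)⁻¹ ^ k := by ring)
        (fun k hk => by
          rw [iter_exp, abs_mul, abs_of_pos (Real.exp_pos _), abs_of_pos (by positivity)]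
          have e5 : a ^ k = (a * wj Y 0) ^ k * (wj Y 0)⁻¹ ^ k := by
            rw [← mul_pow, mul_assoc, mul_inv_cancel₀ hw.ne', mul_one]
          have e6 : (a * wj Y 0) ^ k ≤ K ^ (B + 2) := by
            calc (a * wj Y 0) ^ k ≤ K ^ k :=
                  pow_le_pow_left₀ (by positivity) (by linarith) k
              _ ≤ K ^ (B + 2) := pow_le_pow_right₀ hK hk
          rw [e5]
          calc (a * wj Y 0) ^ k * (wj Y 0)⁻¹ ^ k * Real.exp (a * x)
              ≤ K ^ (B + 2) * (wj Y 0)⁻¹ ^ k * Real.exp (a * x) := by gcongr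
            _ = _ := by ring) i hi
      refine h3.trans (le_of_eq ?_)
      ring
    · have e1 : φ x = 0 := by
        rw [hφ, indicator_of_notMem hx]
      rw [e1, mul_zero]
      have hx' : 2 * wj Y 0 < x := by
        rw [mem_Iic, not_le] at hx
        exact hx
      have hz : (fun x => (1 - ηf (x / wj Y 0)) * Real.exp (a * x)) =ᶠ[nhds x]
          fun _ => (0 : ℝ) := by
        filter_upwards [Ioi_mem_nhds hx'] with y hy
        exact hs' y (Or.inr hy)
      rw [hz.iteratedDeriv_eq, iteratedDeriv_const]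
      simp
  obtain ⟨g, hg1, hg2, hg3, hg4, hg5⟩ := hC (wj Y 0) (2 ^ (B + 2) * (1 + D) * K ^ (B + 2))
    (Real.exp (K / 10) * (2 * Real.log Y)) _ φ hw (by positivity) (by positivity)
    (hsm.mul (exp_smooth a (B + 2))) hφi hφJ hbd
  refine ⟨g, hg1, hg2, hg3, hg4, hg5.trans (le_of_eq ?_)⟩
  rw [← hwL]
  field_simp
  ring

/-- the outer cutoff -/
theorem repB (hF : StFour) : StRepB := by
  intro B
  obtain ⟨C, hC1, hC⟩ := rep_of_bd hF B
  obtain ⟨D, hD1, hD⟩ := eta_bd' (B + 2)
  refine ⟨C * (2 ^ (B + 2) * D * 20), ?_, ?_⟩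
  · have h1 : (1 : ℝ) ≤ 2 ^ (B + 2) := one_le_pow₀ (by norm_num)
    have h2 : (1 : ℝ) ≤ 2 ^ (B + 2) * D := by nlinarith
    nlinarith
  intro Y K hY hK
  have hw := wj_pos hY 0
  have hL := logY_pos hY
  have hK0 : 0 < K := by linarith
  have hwL : wj Y 0 * 20 = Real.log Y := by
    unfold wj
    rw [pow_zero, mul_one]
    field_simp
  set a := K / Real.log Y with ha
  have ha0 : 0 < a := by positivity
  have haK : a * wj Y 0 = K / 20 := by
    rw [ha, ← hwL]
    field_simp
  have hk : (fun x => ηf (x / (3 / 2 * Real.log Y)) * Real.exp (a * x) *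
      Real.exp (-(2 * K / Real.log Y) * x)) = fun x => ηf (x / (3 / 2 * Real.log Y)) *
        Real.exp (-a * x) := by
    funext x
    rw [mul_assoc, ← Real.exp_add]
    congr 2
    rw [ha]
    ring
  rw [hk]
  set φ : ℝ → ℝ := (Ioi (3 / 2 * Real.log Y)).indicator fun x => Real.exp (-a * x) with hφ
  have hφi : Integrable φ := by
    rw [hφ, integrable_indicator_iff measurableSet_Ioi]
    exact integrableOn_exp_mul_Ioi (by linarith) _
  have hφJ : (∫ x, φ x) ≤ Real.exp (-(3 / 2) * K) * Real.log Y := by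
    rw [hφ, integral_indicator measurableSet_Ioi, integral_exp_mul_Ioi (by linarith)]
    have e1 : -a * (3 / 2 * Real.log Y) = -(3 / 2) * K := by
      rw [ha]
      field_simp
    rw [e1, neg_div_neg_eq, div_le_iff₀ ha0]
    have h2 : Real.log Y * a = K := by
      rw [ha]
      field_simp
    calc Real.exp (-(3 / 2) * K) = Real.exp (-(3 / 2) * K) * 1 := (mul_one _).symm
      _ ≤ Real.exp (-(3 / 2) * K) * K := by gcongr
      _ = Real.exp (-(3 / 2) * K) * Real.log Y * a := by rw [mul_assoc, h2]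
  have hsm : ContDiff ℝ (B + 2 : ℕ) (fun x => ηf (x / (3 / 2 * Real.log Y))) :=
    eta_scale_smooth (B + 2) _
  have hbd : ∀ i ≤ B + 2, ∀ x, |iteratedDeriv i (fun x => ηf (x / (3 / 2 * Real.log Y)) *
      Real.exp (-a * x)) x| ≤ (2 ^ (B + 2) * D * K ^ (B + 2)) * (wj Y 0)⁻¹ ^ i * φ x := by
    intro i hi x
    have hmul := mul_bd (n := B + 2) (F := D) (G := K ^ (B + 2) * Real.exp (-a * x)) hsm
        (exp_smooth (-a) (B + 2)) hw (by linarith) (by positivity) x
        (fun k hk => by
          have e2 := eta_scale_bd hD (by positivity : 0 < 3 / 2 * Real.log Y) k hk x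
          refine e2.trans (mul_le_mul_of_nonneg_left ?_ (by linarith))
          refine pow_le_pow_left₀ (by positivity) ?_ k
          refine inv_anti₀ hw ?_
          linarith)
        (fun k hk => by
          rw [iter_exp, abs_mul, abs_of_pos (Real.exp_pos _), abs_pow, abs_neg, abs_of_pos ha0]
          have e5 : a ^ k = (a * wj Y 0) ^ k * (wj Y 0)⁻¹ ^ k := by
            rw [← mul_pow, mul_assoc, mul_inv_cancel₀ hw.ne', mul_one]
          have e6 : (a * wj Y 0) ^ k ≤ K ^ (B + 2) := by
            calc (a * wj Y 0) ^ k ≤ K ^ k :=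
                  pow_le_pow_left₀ (by positivity) (by linarith) k
              _ ≤ K ^ (B + 2) := pow_le_pow_right₀ hK hk
          rw [e5]
          calc (a * wj Y 0) ^ k * (wj Y 0)⁻¹ ^ k * Real.exp (-a * x)
              ≤ K ^ (B + 2) * (wj Y 0)⁻¹ ^ k * Real.exp (-a * x) := by gcongr
            _ = _ := by ring) i hi
    rcases lt_trichotomy x (3 / 2 * Real.log Y) with hx | hx | hx
    · have e1 : φ x = 0 := by
        rw [hφ, indicator_of_notMem (by rw [mem_Ioi]; linarith)]
      rw [e1, mul_zero]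
      have hz : (fun x => ηf (x / (3 / 2 * Real.log Y)) * Real.exp (-a * x)) =ᶠ[nhds x]
          fun _ => (0 : ℝ) := by
        filter_upwards [Iio_mem_nhds hx] with y hy
        rw [eta_zero, zero_mul]
        rw [div_le_one (by positivity)]
        exact le_of_lt hy
      rw [hz.iteratedDeriv_eq, iteratedDeriv_const]
      simp
    · -- at the endpoint the derivatives vanish by continuity
      have e1 : φ x = 0 := by
        rw [hφ, indicator_of_notMem (by rw [mem_Ioi]; linarith)]
      rw [e1, mul_zero]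
      have hcont : Continuous (iteratedDeriv i (fun x => ηf (x / (3 / 2 * Real.log Y)) *
          Real.exp (-a * x))) :=
        (hsm.mul (exp_smooth (-a) (B + 2))).continuous_iteratedDeriv i (by exact_mod_cast hi)
      have hclosed : IsClosed {y | iteratedDeriv i (fun x => ηf (x / (3 / 2 * Real.log Y)) *
          Real.exp (-a * x)) y = 0} := isClosed_eq hcont continuous_const
      have hsub : Iio (3 / 2 * Real.log Y) ⊆ {y | iteratedDeriv i (fun x =>
          ηf (x / (3 / 2 * Real.log Y)) * Real.exp (-a * x)) y = 0} := by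
        intro y hy
        have hz : (fun x => ηf (x / (3 / 2 * Real.log Y)) * Real.exp (-a * x)) =ᶠ[nhds y]
            fun _ => (0 : ℝ) := by
          filter_upwards [Iio_mem_nhds hy] with y' hy'
          rw [eta_zero, zero_mul]
          rw [div_le_one (by positivity)]
          exact le_of_lt hy'
        rw [mem_setOf_eq, hz.iteratedDeriv_eq, iteratedDeriv_const]
        simp
      have hmem : x ∈ closure (Iio (3 / 2 * Real.log Y)) := by
        rw [closure_Iio, mem_Iic, hx]
      have := hclosed.closure_subset_iff.2 hsub hmem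
      rw [mem_setOf_eq] at this
      rw [this, abs_zero]
    · have e1 : φ x = Real.exp (-a * x) := by
        rw [hφ, indicator_of_mem (by rw [mem_Ioi]; exact hx)]
      rw [e1]
      refine hmul.trans (le_of_eq ?_)
      ring
  obtain ⟨g, hg1, hg2, hg3, hg4, hg5⟩ := hC (wj Y 0) (2 ^ (B + 2) * D * K ^ (B + 2))
    (Real.exp (-(3 / 2) * K) * Real.log Y) _ φ hw (by positivity) (by positivity)
    (hsm.mul (exp_smooth (-a) (B + 2))) hφi hφJ hbd
  refine ⟨g, hg1, hg2, hg3, hg4, hg5.trans (le_of_eq ?_)⟩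
  rw [← hwL]
  field_simp

end Moll

end P004
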