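import Vale.Agent.P004.H394.Moll4
import Vale.Agent.P004.H394.Rep
import Vale.Agent.P004.H760.Final3
import Vale.Agent.P004.H253.Tw9
import Vale.Agent.P004.H3.Tw01
import Vale.Agent.P004.H3.Full
import Vale.Agent.P004.H128.Pass3
import Vale.Agent.P004.H293.R2
import Vale.Agent.P004.H293.R3
import Vale.Agent.P004.H293.R4
import Vale.Agent.P004.H628.Poly
import Vale.Agent.P004.H628.Four
import Vale.Agent.P004.H503.Block

/-!
# P004: bounded moments of the analytic rank, all modules assembled
-/

namespace P004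

theorem allMoll : StMoll :=
  have hC : StCoef := pfStCoef
  have hD : StDiv := pfDiv
  have hF : StFour := pfFour
  pfMoll hC hD pfTw0 pfTw1 (tw2 pfFull) (pfPass hC) (pfPassN hC) (pfLim hC) (pfLN hC)
    (H293.pfR2 hC) (H293.pfR3 hC) (H293.pfR4 hC) pfPoly (Moll.repA hF) (Moll.repB hF)
    (Moll.repC hF)

theorem allBlock : StBlock :=
  pfBlock pfStCoef pfFE pfFull (pfVan2 pfStCoef pfFE) pfWf allMoll

theorem final3 : StFin3 := final3_of_block allBlock

end P004
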