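import Vale.Agent.P004.H3.FnSer

/-!
# P004, module W, part 1: from sums over squarefree `m ≤ Y` to the quadratic forms in `rho`
-/

open Real MeasureTheory Set

namespace P004

namespace Moll

open H3

/-! ### the divisor function is small -/

lemma dv_small (hD : StDiv) (A : ℕ) :
    ∃ C : ℝ, 1 ≤ C ∧ ∀ n : ℕ, √(n : ℝ) * dv n ^ A ≤ C * n := by
  obtain ⟨C, hC0, A', hC⟩ := hD.1 (4 * A)
  have h1 := hC 1 one_pos le_rfl
  simp only [div_one, one_pow, mul_one] at h1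
  refine ⟨max C 1, le_max_right _ _, fun n => ?_⟩
  rcases Nat.eq_zero_or_pos n with rfl | hn
  · simp
  have hnR : (0 : ℝ) < n := by exact_mod_cast hn
  have hn1 : (1 : ℝ) ≤ n := by exact_mod_cast hn
  have hd := dv_nonneg n
  have h2 : ENNReal.ofReal (dv n ^ (4 * A) * (n : ℝ) ^ (-1 - (1 : ℝ))) ≤ ENNReal.ofReal C :=
    (ENNReal.le_tsum n).trans h1
  have h3 : dv n ^ (4 * A) * (n : ℝ) ^ (-1 - (1 : ℝ)) ≤ C :=
    (ENNReal.ofReal_le_ofReal_iff hC0.le).1 h2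
  have h4 : dv n ^ (4 * A) ≤ C * (n : ℝ) ^ 2 := by
    have e : (n : ℝ) ^ (-1 - (1 : ℝ)) = ((n : ℝ) ^ 2)⁻¹ := by
      rw [show (-1 - (1 : ℝ)) = -((2 : ℕ) : ℝ) by norm_num, Real.rpow_neg hnR.le,
        Real.rpow_natCast]
    rw [e, ← div_eq_mul_inv, div_le_iff₀ (by positivity)] at h3
    exact h3
  have hC1 : 1 ≤ max C 1 := le_max_right _ _
  have h5 : (dv n ^ A) ^ 4 ≤ (max C 1 * √(n : ℝ)) ^ 4 := by
    have e1 : (dv n ^ A) ^ 4 = dv n ^ (4 * A) := by rw [← pow_mul, mul_comm]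
    have e2 : (√(n : ℝ)) ^ 4 = (n : ℝ) ^ 2 := by
      rw [show (4 : ℕ) = 2 * 2 by norm_num, pow_mul, Real.sq_sqrt hnR.le]
    rw [e1, mul_pow, e2]
    refine h4.trans (mul_le_mul_of_nonneg_right ?_ (by positivity))
    calc C ≤ max C 1 := le_max_left _ _
      _ = max C 1 ^ 1 := (pow_one _).symm
      _ ≤ max C 1 ^ 4 := pow_le_pow_right₀ hC1 (by norm_num)
  have h6 : dv n ^ A ≤ max C 1 * √(n : ℝ) :=
    le_of_pow_le_pow_left₀ (by norm_num) (by positivity) h5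
  calc √(n : ℝ) * dv n ^ A ≤ √(n : ℝ) * (max C 1 * √(n : ℝ)) :=
        mul_le_mul_of_nonneg_left h6 (Real.sqrt_nonneg _)
    _ = max C 1 * (√(n : ℝ) * √(n : ℝ)) := by ring
    _ = max C 1 * n := by rw [Real.mul_self_sqrt hnR.le]

/-! ### cutting a function to `(0, ∞)` -/

/-- `f / b` on `(0,∞)`, `0` elsewhere -/
noncomputable def cut (b : ℝ) (f : ℝ → ℝ) (u : ℝ) : ℝ := if 0 < u then f u / b else 0

section

variable {f : ℝ → ℝ} {b U : ℝ}

lemma cut_meas (hf : Measurable f) : Measurable (cut b f) := by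
  unfold cut
  exact Measurable.ite measurableSet_Ioi (hf.div_const b) measurable_const

lemma cut_le (hb : 0 < b) (h : ∀ u, 0 < u → |f u| ≤ b) (u : ℝ) : |cut b f u| ≤ 1 := by
  unfold cut
  split_ifs with h0
  · rw [abs_div, abs_of_pos hb, div_le_one hb]
    exact h u h0
  · simp

lemma cut_zero (h : ∀ u, 0 < u → u < U → f u = 0) (u : ℝ) (hu : u < U) : cut b f u = 0 := by
  unfold cut
  split_ifs with h0
  · rw [h u h0 hu, zero_div]
  · rfl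

lemma Fn_cut (b : ℝ) (f : ℝ → ℝ) (h : ℤ) : Fn (cut b f) h = Fn f h / b := by
  unfold Fn
  rw [← integral_div]
  refine setIntegral_congr_fun measurableSet_Ioi fun u hu => ?_
  have hu0 : (0 : ℝ) < u := hu
  simp only [cut, if_pos hu0]
  ring

lemma bet_cut (b : ℝ) (f : ℝ → ℝ) (n : ℕ) : bet (cut b f) n = bet f n / b := by
  unfold bet
  rw [mul_div_assoc, ← integral_div]
  congr 1
  refine setIntegral_congr_fun measurableSet_Ioi fun u hu => ?_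
  have hu0 : (0 : ℝ) < u := hu
  simp only [cut, if_pos hu0]
  ring

lemma Fn_bdd (hC : StCoef) (hb : 0 < b) (hU : 0 < U) (hf : Measurable f)
    (h1 : ∀ u, 0 < u → |f u| ≤ b) (h0 : ∀ u, 0 < u → u < U → f u = 0) :
    ∃ M : ℝ, 0 ≤ M ∧ ∀ h : ℤ, |Fn f h| ≤ M := by
  have hs := summable_bet hC hU (cut_le hb h1) (cut_zero (b := b) h0)
  refine ⟨b * ∑' n, |bet (cut b f) n|, mul_nonneg hb.le (tsum_nonneg fun n => abs_nonneg _),
    fun h => ?_⟩
  have e1 : Fn f h = b * Fn (cut b f) h := by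
    rw [Fn_cut]
    field_simp
  rw [e1, abs_mul, abs_of_pos hb]
  refine mul_le_mul_of_nonneg_left ?_ hb.le
  rw [Fn_eq hC hU (cut_meas hf) (cut_le hb h1) (cut_zero (b := b) h0), ← Real.norm_eq_abs]
  refine (norm_tsum_le_tsum_norm ?_).trans ?_
  · refine Summable.of_nonneg_of_le (fun n => norm_nonneg _) (fun n => ?_) hs
    rw [norm_mul, Real.norm_eq_abs, Real.norm_eq_abs]
    exact mul_le_of_le_one_right (abs_nonneg _) (H3.abs_chi_le _ _)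
  · refine Summable.tsum_le_tsum (fun n => ?_) ?_ hs
    · rw [norm_mul, Real.norm_eq_abs, Real.norm_eq_abs]
      exact mul_le_of_le_one_right (abs_nonneg _) (H3.abs_chi_le _ _)
    · refine Summable.of_nonneg_of_le (fun n => norm_nonneg _) (fun n => ?_) hs
      rw [norm_mul, Real.norm_eq_abs, Real.norm_eq_abs]
      exact mul_le_of_le_one_right (abs_nonneg _) (H3.abs_chi_le _ _)

end

/-! ### Dirichlet polynomials and the quadratic forms -/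

/-- the Dirichlet polynomial -/
noncomputable def Dp (S : Finset ℕ) (m : ℕ → ℝ) (X : ℕ → ℝ) : ℝ := ∑ a ∈ S, m a * X a

/-- `E |M_f|²` -/
noncomputable def Q0 (S : Finset ℕ) (m : ℕ → ℝ) : ℝ :=
  ∑ a ∈ S, ∑ a' ∈ S, m a * m a' * rho (a * a')

/-- `E M_f F_f` -/
noncomputable def Q1 (S : Finset ℕ) (m : ℕ → ℝ) (f : ℝ → ℝ) : ℝ :=
  ∑ a ∈ S, m a * ∑' n : ℕ, bet f n * rho (a * n)

/-- `E |M_f F_f|²` -/
noncomputable def Q2 (S : Finset ℕ) (m : ℕ → ℝ) (f : ℝ → ℝ) : ℝ :=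
  ∑ a ∈ S, ∑ a' ∈ S, m a * m a' *
    ∑' p : ℕ × ℕ, bet f p.1 * bet f p.2 * rho (a * a' * p.1 * p.2)

section

variable {S : Finset ℕ} {m : ℕ → ℝ} {H : ℝ}

lemma Dp_abs_le (S : Finset ℕ) (m : ℕ → ℝ) (h : ℤ) :
    |Dp S m (fun n => chi h n)| ≤ ∑ a ∈ S, |m a| := by
  unfold Dp
  refine (Finset.abs_sum_le_sum_abs _ _).trans (Finset.sum_le_sum fun a _ => ?_)
  rw [abs_mul]
  exact mul_le_of_le_one_right (abs_nonneg _) (H3.abs_chi_le _ _)

lemma summable_ah_bdd (hH : 0 < H) {G : ℤ → ℝ} {M : ℝ} (hG : ∀ h, |G h| ≤ M) :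
    Summable fun h : ℤ => H1.ah H h * G h := by
  refine Summable.of_norm_bounded ((H1.summable_ah hH).mul_right M) fun h => ?_
  rw [norm_mul, Real.norm_of_nonneg (H1.ah_nonneg H h), Real.norm_eq_abs]
  exact mul_le_mul_of_nonneg_left (hG h) (H1.ah_nonneg H h)

lemma Dp_sq (hS : ∀ a ∈ S, a ≠ 0) (h : ℤ) : Dp S m (fun n => chi h n) ^ 2 =
    ∑ a ∈ S, ∑ a' ∈ S, m a * m a' * chi h (a * a') := by
  unfold Dp
  rw [sq, Finset.sum_mul_sum]
  refine Finset.sum_congr rfl fun a ha => Finset.sum_congr rfl fun a' ha' => ?_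
  rw [H1.chi_mul h (hS a ha) (hS a' ha')]
  ring

/-- expansion of the second moments -/
lemma expand2 (hH : 0 < H) (hS : ∀ a ∈ S, a ≠ 0) {G : ℤ → ℝ} {M : ℝ} (hG : ∀ h, |G h| ≤ M) :
    ∑' h : ℤ, H1.ah H h * (Dp S m (fun n => chi h n) ^ 2 * G h) =
      ∑ a ∈ S, ∑ a' ∈ S, m a * m a' * ∑' h : ℤ, H1.ah H h * chi h (a * a') * G h := by
  have hs : ∀ a a' : ℕ, Summable fun h : ℤ => m a * m a' * (H1.ah H h * chi h (a * a') * G h) := by
    intro a a'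
    refine Summable.mul_left _ ?_
    have h1 := summable_ah_bdd hH (G := fun h => chi h (a * a') * G h) (M := M) (fun h => by
      rw [abs_mul]
      exact (mul_le_of_le_one_left (abs_nonneg _) (H3.abs_chi_le _ _)).trans (hG h))
    refine h1.congr fun h => ?_
    ring
  calc ∑' h : ℤ, H1.ah H h * (Dp S m (fun n => chi h n) ^ 2 * G h)
      = ∑' h : ℤ, ∑ a ∈ S, ∑ a' ∈ S, m a * m a' * (H1.ah H h * chi h (a * a') * G h) := by
        refine tsum_congr fun h => ?_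
        rw [Dp_sq hS, Finset.sum_mul, Finset.mul_sum]
        refine Finset.sum_congr rfl fun a _ => ?_
        rw [Finset.sum_mul, Finset.mul_sum]
        refine Finset.sum_congr rfl fun a' _ => ?_
        ring
    _ = ∑ a ∈ S, ∑' h : ℤ, ∑ a' ∈ S, m a * m a' * (H1.ah H h * chi h (a * a') * G h) :=
        Summable.tsum_finsetSum fun a _ => summable_sum fun a' _ => hs a a'
    _ = ∑ a ∈ S, ∑ a' ∈ S, ∑' h : ℤ, m a * m a' * (H1.ah H h * chi h (a * a') * G h) :=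
        Finset.sum_congr rfl fun a _ => Summable.tsum_finsetSum fun a' _ => hs a a'
    _ = _ := Finset.sum_congr rfl fun a _ => Finset.sum_congr rfl fun a' _ => tsum_mul_left

lemma expand1 (hH : 0 < H) {G : ℤ → ℝ} {M : ℝ} (hG : ∀ h, |G h| ≤ M) :
    ∑' h : ℤ, H1.ah H h * (Dp S m (fun n => chi h n) * G h) =
      ∑ a ∈ S, m a * ∑' h : ℤ, H1.ah H h * chi h a * G h := by
  have hs : ∀ a : ℕ, Summable fun h : ℤ => m a * (H1.ah H h * chi h a * G h) := by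
    intro a
    refine Summable.mul_left _ ?_
    have h1 := summable_ah_bdd hH (G := fun h => chi h a * G h) (M := M) (fun h => by
      rw [abs_mul]
      exact (mul_le_of_le_one_left (abs_nonneg _) (H3.abs_chi_le _ _)).trans (hG h))
    refine h1.congr fun h => ?_
    ring
  calc ∑' h : ℤ, H1.ah H h * (Dp S m (fun n => chi h n) * G h)
      = ∑' h : ℤ, ∑ a ∈ S, m a * (H1.ah H h * chi h a * G h) := by
        refine tsum_congr fun h => ?_
        unfold Dp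
        rw [Finset.sum_mul, Finset.mul_sum]
        refine Finset.sum_congr rfl fun a _ => ?_
        ring
    _ = ∑ a ∈ S, ∑' h : ℤ, m a * (H1.ah H h * chi h a * G h) :=
        Summable.tsum_finsetSum fun a _ => hs a
    _ = _ := Finset.sum_congr rfl fun a _ => tsum_mul_left

/-- from squarefree `m ≤ Y` to all integers -/
lemma sqf_le (Y : ℕ) (hY : 1 ≤ Y) {G : ℤ → ℝ} {M : ℝ} (hG : ∀ h, |G h| ≤ M) :
    ∑ k ∈ sqf Y, G k ^ 2 ≤ H1.c0⁻¹ * ∑' h : ℤ, H1.ah Y h * G h ^ 2 := by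
  have hY0 : (0 : ℝ) < Y := by exact_mod_cast hY
  have hs : Summable fun h : ℤ => H1.ah Y h * G h ^ 2 :=
    summable_ah_bdd hY0 (G := fun h => G h ^ 2) (M := M ^ 2) (fun h => by
      rw [abs_pow]
      exact pow_le_pow_left₀ (abs_nonneg _) (hG h) 2)
  have h1 : ∑ k ∈ sqf Y, H1.c0 * G k ^ 2 ≤ ∑' h : ℤ, H1.ah Y h * G h ^ 2 := by
    calc ∑ k ∈ sqf Y, H1.c0 * G k ^ 2 ≤ ∑ k ∈ sqf Y, H1.ah Y k * G k ^ 2 := by
          refine Finset.sum_le_sum fun k hk => ?_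
          refine mul_le_mul_of_nonneg_right ?_ (sq_nonneg _)
          have : k ≤ Y := (Finset.mem_Icc.1 (Finset.mem_filter.1 hk).1).2
          exact H1.c0_le hY0 (by exact_mod_cast this)
      _ = ∑ h ∈ (sqf Y).map (Nat.castEmbedding (R := ℤ)), H1.ah Y h * G h ^ 2 := by
          rw [Finset.sum_map]
          rfl
      _ ≤ ∑' h : ℤ, H1.ah Y h * G h ^ 2 :=
          hs.sum_le_tsum _ fun h _ => mul_nonneg (H1.ah_nonneg _ _) (sq_nonneg _)
  rw [← Finset.mul_sum] at h1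
  rw [inv_mul_eq_div, le_div_iff₀ H1.c0_pos, mul_comm]
  exact h1

end

/-! ### the error terms -/

/-- sums over the support of the mollifier -/
lemma sum_supp {S : Finset ℕ} {m : ℕ → ℝ} {Λ : ℝ} (hm : ∀ a ∈ S, |m a| ≤ 1) (hS : ∀ a ∈ S, a ≠ 0)
    (hΛ : ∀ a ∈ S, (a : ℝ) ≤ Λ) : ∑ a ∈ S, |m a| * a ≤ Λ ^ 2 := by
  rcases S.eq_empty_or_nonempty with rfl | ⟨a0, ha0⟩
  · simp only [Finset.sum_empty]
    positivity
  have hΛ1 : 1 ≤ Λ := by
    have h1 := hΛ a0 ha0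
    have h2 : (1 : ℝ) ≤ a0 := by exact_mod_cast Nat.one_le_iff_ne_zero.2 (hS a0 ha0)
    linarith
  have hcard : (S.card : ℝ) ≤ Λ := by
    have h1 : S ⊆ Finset.Icc 1 ⌊Λ⌋₊ := by
      intro a ha
      rw [Finset.mem_Icc]
      exact ⟨Nat.one_le_iff_ne_zero.2 (hS a ha), Nat.le_floor (hΛ a ha)⟩
    have h2 := Finset.card_le_card h1
    rw [Nat.card_Icc, Nat.add_sub_cancel] at h2
    calc (S.card : ℝ) ≤ (⌊Λ⌋₊ : ℝ) := by exact_mod_cast h2
      _ ≤ Λ := Nat.floor_le (by linarith)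
  calc ∑ a ∈ S, |m a| * a ≤ ∑ a ∈ S, Λ := by
        refine Finset.sum_le_sum fun a ha => ?_
        calc |m a| * a ≤ 1 * Λ := mul_le_mul (hm a ha) (hΛ a ha) (Nat.cast_nonneg _) zero_le_one
          _ = Λ := one_mul _
    _ = S.card * Λ := by rw [Finset.sum_const, nsmul_eq_mul]
    _ ≤ Λ * Λ := mul_le_mul_of_nonneg_right hcard (by linarith)
    _ = Λ ^ 2 := (sq Λ).symm

lemma sum_supp2 {S : Finset ℕ} {m : ℕ → ℝ} {Λ : ℝ} (hm : ∀ a ∈ S, |m a| ≤ 1)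
    (hS : ∀ a ∈ S, a ≠ 0) (hΛ : ∀ a ∈ S, (a : ℝ) ≤ Λ) :
    ∑ a ∈ S, ∑ a' ∈ S, |m a * m a'| * ((a * a' : ℕ) : ℝ) ≤ Λ ^ 4 := by
  have h1 := sum_supp hm hS hΛ
  have h0 : 0 ≤ ∑ a ∈ S, |m a| * (a : ℝ) :=
    Finset.sum_nonneg fun a _ => mul_nonneg (abs_nonneg _) (Nat.cast_nonneg _)
  calc ∑ a ∈ S, ∑ a' ∈ S, |m a * m a'| * ((a * a' : ℕ) : ℝ)
      = (∑ a ∈ S, |m a| * (a : ℝ)) * ∑ a ∈ S, |m a| * (a : ℝ) := by
        rw [Finset.sum_mul_sum]
        refine Finset.sum_congr rfl fun a _ => Finset.sum_congr rfl fun a' _ => ?_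
        rw [abs_mul]
        push_cast
        ring
    _ ≤ Λ ^ 2 * Λ ^ 2 := mul_le_mul h1 h1 h0 (by positivity)
    _ = Λ ^ 4 := by ring

/-- the twisted second moment -/
lemma tr2 (hC : StCoef) (hD : StDiv) (h2 : StTw2) : ∃ C : ℝ, 1 ≤ C ∧ ∃ A : ℕ,
    ∀ (L H U b Λ : ℝ) (S : Finset ℕ) (m : ℕ → ℝ) (f : ℝ → ℝ), 1 ≤ L → 1 ≤ H → Real.log H ≤ L →
    Real.exp (-L) ≤ U → U ≤ 1 → 0 < b → Measurable f → (∀ u, 0 < u → |f u| ≤ b) →
    (∀ u, 0 < u → u < U → f u = 0) → (∀ a ∈ S, |m a| ≤ 1) → (∀ a ∈ S, Good a) →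
    (∀ a ∈ S, (a : ℝ) ≤ Λ) → 2 * Real.log Λ ≤ L →
    |∑' h : ℤ, H1.ah H h * (Dp S m (fun n => chi h n) ^ 2 * Fn f h ^ 2) - 5040 * H * Q2 S m f| ≤
      C * L ^ A * b ^ 2 * Λ ^ 4 / U := by
  obtain ⟨C, hC1, A, hT⟩ := h2
  obtain ⟨C', hC'1, hdv⟩ := dv_small hD A
  refine ⟨C * C', by nlinarith, A, ?_⟩
  intro L H U b Λ S m f hL hH hLH hU hU1 hb hf hfb hf0 hm hG hΛ hΛL
  have hU0 : 0 < U := lt_of_lt_of_le (Real.exp_pos _) hU
  have hH0 : 0 < H := by linarith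
  have hS0 : ∀ a ∈ S, a ≠ 0 := fun a ha => (hG a ha).1
  obtain ⟨M, hM0, hM⟩ := Fn_bdd hC hb hU0 hf hfb hf0
  have hG2 : ∀ h : ℤ, |Fn f h ^ 2| ≤ M ^ 2 := by
    intro h
    rw [abs_pow]
    exact pow_le_pow_left₀ (abs_nonneg _) (hM h) 2
  rw [expand2 hH0 hS0 hG2]
  unfold Q2
  have e0 : ∑ a ∈ S, ∑ a' ∈ S, m a * m a' * ∑' h : ℤ, H1.ah H h * chi h (a * a') * Fn f h ^ 2 -
      5040 * H * ∑ a ∈ S, ∑ a' ∈ S, m a * m a' *
        ∑' p : ℕ × ℕ, bet f p.1 * bet f p.2 * rho (a * a' * p.1 * p.2) =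
      ∑ a ∈ S, ∑ a' ∈ S, m a * m a' * (∑' h : ℤ, H1.ah H h * chi h (a * a') * Fn f h ^ 2 -
        5040 * H * ∑' p : ℕ × ℕ, bet f p.1 * bet f p.2 * rho (a * a' * p.1 * p.2)) := by
    rw [Finset.mul_sum, ← Finset.sum_sub_distrib]
    refine Finset.sum_congr rfl fun a _ => ?_
    rw [Finset.mul_sum, ← Finset.sum_sub_distrib]
    refine Finset.sum_congr rfl fun a' _ => ?_
    ring
  rw [e0]
  have hterm : ∀ a ∈ S, ∀ a' ∈ S, |∑' h : ℤ, H1.ah H h * chi h (a * a') * Fn f h ^ 2 -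
      5040 * H * ∑' p : ℕ × ℕ, bet f p.1 * bet f p.2 * rho (a * a' * p.1 * p.2)| ≤
      (C * C' * L ^ A * b ^ 2 / U) * ((a * a' : ℕ) : ℝ) := by
    intro a ha a' ha'
    have hν : Good (a * a') := good_mul (hG a ha) (hG a' ha')
    have hνL : Real.log ((a * a' : ℕ) : ℝ) ≤ L := by
      have h1 : (0 : ℝ) < a := by exact_mod_cast Nat.pos_of_ne_zero (hS0 a ha)
      have h2 : (0 : ℝ) < a' := by exact_mod_cast Nat.pos_of_ne_zero (hS0 a' ha')
      push_cast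
      rw [Real.log_mul h1.ne' h2.ne']
      have h3 := Real.log_le_log h1 (hΛ a ha)
      have h4 := Real.log_le_log h2 (hΛ a' ha')
      linarith
    have h1 := hT L H U (a * a') (cut b f) hL hH hLH hU hU1 hν hνL (cut_meas hf) (cut_le hb hfb)
      (cut_zero hf0)
    have e1 : ∑' h : ℤ, H1.ah H h * chi h (a * a') * Fn (cut b f) h ^ 2 =
        (∑' h : ℤ, H1.ah H h * chi h (a * a') * Fn f h ^ 2) / b ^ 2 := by
      rw [← tsum_div_const]
      refine tsum_congr fun h => ?_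
      rw [Fn_cut]
      field_simp
    have e2 : ∑' p : ℕ × ℕ, bet (cut b f) p.1 * bet (cut b f) p.2 * rho (a * a' * p.1 * p.2) =
        (∑' p : ℕ × ℕ, bet f p.1 * bet f p.2 * rho (a * a' * p.1 * p.2)) / b ^ 2 := by
      rw [← tsum_div_const]
      refine tsum_congr fun p => ?_
      rw [bet_cut, bet_cut]
      field_simp
    rw [e1, e2, mul_div_assoc', ← sub_div, abs_div, abs_of_pos (by positivity : 0 < b ^ 2),
      div_le_iff₀ (by positivity)] at h1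
    refine h1.trans ?_
    have h3 := hdv (a * a')
    calc C * L ^ A * (√((a * a' : ℕ) : ℝ) * dv (a * a') ^ A) / U * b ^ 2
        ≤ C * L ^ A * (C' * ((a * a' : ℕ) : ℝ)) / U * b ^ 2 := by gcongr
      _ = (C * C' * L ^ A * b ^ 2 / U) * ((a * a' : ℕ) : ℝ) := by ring
  calc |∑ a ∈ S, ∑ a' ∈ S, m a * m a' * (∑' h : ℤ, H1.ah H h * chi h (a * a') * Fn f h ^ 2 -
        5040 * H * ∑' p : ℕ × ℕ, bet f p.1 * bet f p.2 * rho (a * a' * p.1 * p.2))|
      ≤ ∑ a ∈ S, ∑ a' ∈ S, |m a * m a' * (∑' h : ℤ, H1.ah H h * chi h (a * a') * Fn f h ^ 2 -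
        5040 * H * ∑' p : ℕ × ℕ, bet f p.1 * bet f p.2 * rho (a * a' * p.1 * p.2))| :=
        (Finset.abs_sum_le_sum_abs _ _).trans
          (Finset.sum_le_sum fun a _ => Finset.abs_sum_le_sum_abs _ _)
    _ ≤ ∑ a ∈ S, ∑ a' ∈ S, (C * C' * L ^ A * b ^ 2 / U) * (|m a * m a'| * ((a * a' : ℕ) : ℝ)) := by
        refine Finset.sum_le_sum fun a ha => Finset.sum_le_sum fun a' ha' => ?_
        rw [abs_mul]
        calc |m a * m a'| * _ ≤ |m a * m a'| * ((C * C' * L ^ A * b ^ 2 / U) *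
              ((a * a' : ℕ) : ℝ)) := mul_le_mul_of_nonneg_left (hterm a ha a' ha') (abs_nonneg _)
          _ = _ := by ring
    _ = (C * C' * L ^ A * b ^ 2 / U) * ∑ a ∈ S, ∑ a' ∈ S, |m a * m a'| * ((a * a' : ℕ) : ℝ) := by
        simp_rw [Finset.mul_sum]
    _ ≤ (C * C' * L ^ A * b ^ 2 / U) * Λ ^ 4 :=
        mul_le_mul_of_nonneg_left (sum_supp2 hm hS0 hΛ) (by positivity)
    _ = C * C' * L ^ A * b ^ 2 * Λ ^ 4 / U := by ring

/-- the twisted first moment -/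
lemma tr1 (hC : StCoef) (hD : StDiv) (h2 : StTw1) : ∃ C : ℝ, 1 ≤ C ∧ ∃ A : ℕ,
    ∀ (L H U b Λ : ℝ) (S : Finset ℕ) (m : ℕ → ℝ) (f : ℝ → ℝ), 1 ≤ L → 1 ≤ H →
    Real.exp (-L) ≤ U → U ≤ 1 → 0 < b → Measurable f → (∀ u, 0 < u → |f u| ≤ b) →
    (∀ u, 0 < u → u < U → f u = 0) → (∀ a ∈ S, |m a| ≤ 1) → (∀ a ∈ S, Good a) →
    (∀ a ∈ S, (a : ℝ) ≤ Λ) →
    |∑' h : ℤ, H1.ah H h * (Dp S m (fun n => chi h n) * Fn f h) - 5040 * H * Q1 S m f| ≤
      C * L ^ A * b * Λ ^ 2 / U := by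
  obtain ⟨C, hC1, A, hT⟩ := h2
  obtain ⟨C', hC'1, hdv⟩ := dv_small hD A
  refine ⟨C * C', by nlinarith, A, ?_⟩
  intro L H U b Λ S m f hL hH hU hU1 hb hf hfb hf0 hm hG hΛ
  have hU0 : 0 < U := lt_of_lt_of_le (Real.exp_pos _) hU
  have hH0 : 0 < H := by linarith
  have hS0 : ∀ a ∈ S, a ≠ 0 := fun a ha => (hG a ha).1
  obtain ⟨M, hM0, hM⟩ := Fn_bdd hC hb hU0 hf hfb hf0
  rw [expand1 hH0 hM]
  unfold Q1
  have e0 : ∑ a ∈ S, m a * ∑' h : ℤ, H1.ah H h * chi h a * Fn f h -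
      5040 * H * ∑ a ∈ S, m a * ∑' n : ℕ, bet f n * rho (a * n) =
      ∑ a ∈ S, m a * (∑' h : ℤ, H1.ah H h * chi h a * Fn f h -
        5040 * H * ∑' n : ℕ, bet f n * rho (a * n)) := by
    rw [Finset.mul_sum, ← Finset.sum_sub_distrib]
    refine Finset.sum_congr rfl fun a _ => ?_
    ring
  rw [e0]
  have hterm : ∀ a ∈ S, |∑' h : ℤ, H1.ah H h * chi h a * Fn f h -
        5040 * H * ∑' n : ℕ, bet f n * rho (a * n)| ≤
      (C * C' * L ^ A * b / U) * (a : ℝ) := by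
    intro a ha
    have h1 := hT L H U a (cut b f) hL hH hU hU1 (hG a ha) (cut_meas hf) (cut_le hb hfb)
      (cut_zero hf0)
    have e1 : ∑' h : ℤ, H1.ah H h * chi h a * Fn (cut b f) h =
        (∑' h : ℤ, H1.ah H h * chi h a * Fn f h) / b := by
      rw [← tsum_div_const]
      refine tsum_congr fun h => ?_
      rw [Fn_cut]
      field_simp
    have e2 : ∑' n : ℕ, bet (cut b f) n * rho (a * n) =
        (∑' n : ℕ, bet f n * rho (a * n)) / b := by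
      rw [← tsum_div_const]
      refine tsum_congr fun p => ?_
      rw [bet_cut]
      field_simp
    rw [e1, e2, mul_div_assoc', ← sub_div, abs_div, abs_of_pos hb,
      div_le_iff₀ (by positivity)] at h1
    refine h1.trans ?_
    have h3 := hdv a
    calc C * L ^ A * (√(a : ℝ) * dv a ^ A) / U * b
        ≤ C * L ^ A * (C' * (a : ℝ)) / U * b := by gcongr
      _ = (C * C' * L ^ A * b / U) * (a : ℝ) := by ring
  calc |∑ a ∈ S, m a * (∑' h : ℤ, H1.ah H h * chi h a * Fn f h -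
        5040 * H * ∑' n : ℕ, bet f n * rho (a * n))|
      ≤ ∑ a ∈ S, |m a * (∑' h : ℤ, H1.ah H h * chi h a * Fn f h -
        5040 * H * ∑' n : ℕ, bet f n * rho (a * n))| := Finset.abs_sum_le_sum_abs _ _
    _ ≤ ∑ a ∈ S, (C * C' * L ^ A * b / U) * (|m a| * (a : ℝ)) := by
        refine Finset.sum_le_sum fun a ha => ?_
        rw [abs_mul]
        calc |m a| * _ ≤ |m a| * ((C * C' * L ^ A * b / U) * (a : ℝ)) :=
              mul_le_mul_of_nonneg_left (hterm a ha) (abs_nonneg _)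
          _ = _ := by ring
    _ = (C * C' * L ^ A * b / U) * ∑ a ∈ S, |m a| * (a : ℝ) := by
        rw [Finset.mul_sum]
    _ ≤ (C * C' * L ^ A * b / U) * Λ ^ 2 :=
        mul_le_mul_of_nonneg_left (sum_supp hm hS0 hΛ) (by positivity)
    _ = C * C' * L ^ A * b * Λ ^ 2 / U := by ring

/-- the moment of the Dirichlet polynomial alone -/
lemma tr0 (hD : StDiv) (h2 : StTw0) : ∃ C : ℝ, 1 ≤ C ∧
    ∀ (H Λ : ℝ) (S : Finset ℕ) (m : ℕ → ℝ), 1 ≤ H → (∀ a ∈ S, |m a| ≤ 1) → (∀ a ∈ S, Good a) →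
    (∀ a ∈ S, (a : ℝ) ≤ Λ) →
    |∑' h : ℤ, H1.ah H h * Dp S m (fun n => chi h n) ^ 2 - 5040 * H * Q0 S m| ≤ C * Λ ^ 4 := by
  obtain ⟨C, hC1, hT⟩ := h2
  obtain ⟨C', hC'1, hdv⟩ := dv_small hD 1
  refine ⟨C * C', by nlinarith, ?_⟩
  intro H Λ S m hH hm hG hΛ
  have hH0 : 0 < H := by linarith
  have hS0 : ∀ a ∈ S, a ≠ 0 := fun a ha => (hG a ha).1
  have e00 : ∑' h : ℤ, H1.ah H h * Dp S m (fun n => chi h n) ^ 2 =
      ∑' h : ℤ, H1.ah H h * (Dp S m (fun n => chi h n) ^ 2 * 1) := by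
    simp only [mul_one]
  rw [e00, expand2 hH0 hS0 (G := fun _ => 1) (M := 1) (fun h => by simp)]
  unfold Q0
  have e0 : ∑ a ∈ S, ∑ a' ∈ S, m a * m a' * ∑' h : ℤ, H1.ah H h * chi h (a * a') * 1 -
      5040 * H * ∑ a ∈ S, ∑ a' ∈ S, m a * m a' * rho (a * a') =
      ∑ a ∈ S, ∑ a' ∈ S, m a * m a' * Eh H (a * a') := by
    rw [Finset.mul_sum, ← Finset.sum_sub_distrib]
    refine Finset.sum_congr rfl fun a _ => ?_
    rw [Finset.mul_sum, ← Finset.sum_sub_distrib]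
    refine Finset.sum_congr rfl fun a' _ => ?_
    unfold Eh
    simp only [mul_one]
    ring
  rw [e0]
  calc |∑ a ∈ S, ∑ a' ∈ S, m a * m a' * Eh H (a * a')|
      ≤ ∑ a ∈ S, ∑ a' ∈ S, |m a * m a' * Eh H (a * a')| :=
        (Finset.abs_sum_le_sum_abs _ _).trans
          (Finset.sum_le_sum fun a _ => Finset.abs_sum_le_sum_abs _ _)
    _ ≤ ∑ a ∈ S, ∑ a' ∈ S, (C * C') * (|m a * m a'| * ((a * a' : ℕ) : ℝ)) := by
        refine Finset.sum_le_sum fun a ha => Finset.sum_le_sum fun a' ha' => ?_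
        rw [abs_mul]
        have h1 := hT H (a * a') hH (good_mul (hG a ha) (hG a' ha'))
        have h3 := hdv (a * a')
        rw [pow_one] at h3
        calc |m a * m a'| * |Eh H (a * a')|
            ≤ |m a * m a'| * (C * (C' * ((a * a' : ℕ) : ℝ))) := by
              refine mul_le_mul_of_nonneg_left (h1.trans ?_) (abs_nonneg _)
              exact mul_le_mul_of_nonneg_left h3 (by linarith)
          _ = _ := by ring
    _ = (C * C') * ∑ a ∈ S, ∑ a' ∈ S, |m a * m a'| * ((a * a' : ℕ) : ℝ) := by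
        simp_rw [Finset.mul_sum]
    _ ≤ (C * C') * Λ ^ 4 := mul_le_mul_of_nonneg_left (sum_supp2 hm hS0 hΛ) (by positivity)

end Moll

end P004
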