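import Vale.Agent.P004.H503.Iface3

/-!
# P004, module W: Fourier representations of the weights (statements)
-/

open Real MeasureTheory Set

namespace P004

/-- `k` is the Fourier transform of `g`, with the weighted `L¹` norm of `g` at scale `w` at most
`M` -/
def Rep (B : ℕ) (w M : ℝ) (k : ℝ → ℝ) : Prop :=
  ∃ g : ℝ → ℂ, Continuous g ∧ Integrable g ∧
    (∀ x : ℝ, (k x : ℂ) = ∫ τ : ℝ, g τ * Complex.exp (τ * x * Complex.I)) ∧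
    Integrable (fun τ => ‖g τ‖ * (1 + |τ| * w) ^ B) ∧
    (∫ τ, ‖g τ‖ * (1 + |τ| * w) ^ B) ≤ M

/-- the inner cutoff `(1 - η(x/w₀)) e^{z₀ x}`, on the line `1/(2L)` -/
def StRepA : Prop :=
  ∀ B : ℕ, ∃ C : ℝ, 1 ≤ C ∧ ∀ (Y : ℕ) (K : ℝ), 3 ≤ Y → 1 ≤ K →
    Rep B (wj Y 0) (C * K ^ (B + 2) * Real.exp (K / 10)) (fun x =>
      (1 - ηf (x / wj Y 0)) * Real.exp (K / Real.log Y * x) *
        Real.exp (-(1 / (2 * Real.log Y)) * x))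

/-- the outer cutoff `η(x/(3L/2)) e^{z₀ x}`, on the line `2 z₀` -/
def StRepB : Prop :=
  ∀ B : ℕ, ∃ C : ℝ, 1 ≤ C ∧ ∀ (Y : ℕ) (K : ℝ), 3 ≤ Y → 1 ≤ K →
    Rep B (wj Y 0) (C * K ^ (B + 2) * Real.exp (-(3 / 2) * K)) (fun x =>
      ηf (x / (3 / 2 * Real.log Y)) * Real.exp (K / Real.log Y * x) *
        Real.exp (-(2 * K / Real.log Y) * x))

/-- the windows, on the line `1/L` -/
def StRepC : Prop :=
  ∀ B : ℕ, ∃ C : ℝ, 1 ≤ C ∧ ∀ (Y j : ℕ) (h : ℝ → ℝ) (b : ℝ), 3 ≤ Y → 0 ≤ b →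
    ContDiff ℝ (B + 2 : ℕ) h → (∀ x, h x ≠ 0 → wj Y j ≤ x ∧ x ≤ 3 * Real.log Y) →
    (∀ i ≤ B + 2, ∀ x, |iteratedDeriv i h x| ≤ b * (wj Y j)⁻¹ ^ i) →
    Rep B (wj Y j) (C * b * 2 ^ j) (fun x => h x * Real.exp (-(1 / Real.log Y) * x))

end P004
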