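import Vale.Agent.P004.H394.Moll1
import Vale.Agent.P004.H394.RepDefs
import Vale.Agent.P004.H128.Pass3

/-!
# P004, module W, part 2: the windows, the remaining blocks, the whole mollifier
-/

open Real MeasureTheory Set

namespace P004

namespace Moll

open H128

/-! ### elementary facts -/

lemma chi_one (h : ℤ) : chi h 1 = 1 := by
  unfold chi
  simp

lemma chi_CM (h : ℤ) : CM (fun n => chi h n) :=
  ⟨chi_one h, fun _ _ ha hb => H1.chi_mul h ha hb⟩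

/-- `L^A e^{-c L^{3/4}}` is bounded -/
lemma pow_exp_bdd (A : ℕ) {c : ℝ} (hc : 0 < c) :
    ∃ C : ℝ, 1 ≤ C ∧ ∀ L : ℝ, 1 ≤ L → L ^ A * Real.exp (-(c * L ^ (3 / 4 : ℝ))) ≤ C := by
  refine ⟨max 1 ((2 * A).factorial / c ^ (2 * A)), le_max_left _ _, fun L hL => ?_⟩
  refine le_trans ?_ (le_max_right _ _)
  have hL0 : 0 < L := by linarith
  set y := L ^ (3 / 4 : ℝ) with hy
  have hy1 : 1 ≤ y := Real.one_le_rpow hL (by norm_num)
  have hLy : L ≤ y ^ 2 := by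
    rw [hy, ← Real.rpow_natCast, ← Real.rpow_mul hL0.le]
    calc L = L ^ (1 : ℝ) := (Real.rpow_one L).symm
      _ ≤ L ^ (3 / 4 * ((2 : ℕ) : ℝ)) := Real.rpow_le_rpow_of_exponent_le hL (by norm_num)
  have h1 : L ^ A ≤ y ^ (2 * A) := by
    rw [pow_mul]
    exact pow_le_pow_left₀ hL0.le hLy A
  have h2 : (c * y) ^ (2 * A) / ((2 * A).factorial : ℝ) ≤ Real.exp (c * y) :=
    Real.pow_div_factorial_le_exp (c * y) (by positivity) (2 * A)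
  rw [div_le_iff₀ (by positivity), mul_pow] at h2
  rw [le_div_iff₀ (by positivity), Real.exp_neg]
  have h3 : 0 < Real.exp (c * y) := Real.exp_pos _
  calc L ^ A * (Real.exp (c * y))⁻¹ * c ^ (2 * A)
      ≤ y ^ (2 * A) * (Real.exp (c * y))⁻¹ * c ^ (2 * A) := by gcongr
    _ = (c ^ (2 * A) * y ^ (2 * A)) * (Real.exp (c * y))⁻¹ := by ring
    _ ≤ (Real.exp (c * y) * ((2 * A).factorial : ℝ)) * (Real.exp (c * y))⁻¹ := by gcongr
    _ = ((2 * A).factorial : ℝ) := by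
        field_simp

section

variable {Y : ℕ}

lemma logY_ge_one (hY : 3 ≤ Y) : 1 ≤ Real.log Y := by
  rw [Real.le_log_iff_exp_le (by exact_mod_cast (by omega : 0 < Y))]
  have h1 := Real.exp_one_lt_d9
  have h2 : (3 : ℝ) ≤ Y := by exact_mod_cast hY
  linarith

lemma wj_ge (hY : 3 ≤ Y) {j : ℕ} (hj : (2 : ℝ) ^ j ≤ Real.log Y ^ (1 / 4 : ℝ)) :
    Real.log Y ^ (3 / 4 : ℝ) / 20 ≤ wj Y j := by
  have hL := logY_ge_one hY
  have hL0 : 0 < Real.log Y := by linarith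
  have h2j : (0 : ℝ) < 2 ^ j := by positivity
  unfold wj
  rw [div_le_div_iff₀ (by norm_num) (by positivity)]
  have e : Real.log Y ^ (3 / 4 : ℝ) * Real.log Y ^ (1 / 4 : ℝ) = Real.log Y := by
    rw [← Real.rpow_add hL0]
    norm_num
  calc Real.log Y ^ (3 / 4 : ℝ) * (20 * 2 ^ j) ≤
        Real.log Y ^ (3 / 4 : ℝ) * (20 * Real.log Y ^ (1 / 4 : ℝ)) := by gcongr
    _ = (Real.log Y ^ (3 / 4 : ℝ) * Real.log Y ^ (1 / 4 : ℝ)) * 20 := by ring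
    _ = Real.log Y * 20 := by rw [e]

lemma exp_neg_le_two (j : ℕ) : Real.exp (-(j : ℝ)) ≤ (2 ^ j)⁻¹ := by
  rw [Real.exp_neg]
  refine inv_anti₀ (by positivity) ?_
  have h1 : (2 : ℝ) ≤ Real.exp 1 := by
    have := Real.add_one_le_exp (1 : ℝ)
    linarith
  calc (2 : ℝ) ^ j ≤ Real.exp 1 ^ j := pow_le_pow_left₀ (by norm_num) h1 j
    _ = Real.exp j := by rw [← Real.exp_nat_mul, mul_one]

lemma yk_mono {L : ℝ} (hL : 0 ≤ L) (k : ℕ) : yk L k ≤ yk L 0 := by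
  unfold yk
  refine Real.exp_le_exp.2 (mul_le_mul_of_nonneg_left ?_ (by positivity))
  refine Real.exp_le_exp.2 ?_
  simp

/-- the blocks `≥ 2j` -/
noncomputable def Mj (Y : ℕ) (K : ℝ) (j m : ℕ) : ℝ :=
  Mf (Real.log Y) K (2 * j) ⌈Real.log Y⌉₊ (fun n => chi m n)

/-- the blocks `< 2j` -/
noncomputable def Mrj (Y : ℕ) (K : ℝ) (j m : ℕ) : ℝ :=
  Mf (Real.log Y) K 0 (2 * j) (fun n => chi m n)

lemma Mj_split (hY : 3 ≤ Y) (K : ℝ) {j : ℕ} (m : ℕ) (hj : (2 : ℝ) ^ j ≤ Real.log Y ^ (1 / 4 : ℝ)) :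
    Mj Y K 0 m = Mj Y K j m * Mrj Y K j m := by
  have hL := logY_ge_one hY
  have h1 : 2 * j ≤ ⌈Real.log Y⌉₊ := by
    have h2 : (2 : ℝ) ^ (4 * j) ≤ Real.log Y := by
      calc (2 : ℝ) ^ (4 * j) = (2 ^ j) ^ 4 := by rw [← pow_mul, mul_comm]
        _ ≤ (Real.log Y ^ (1 / 4 : ℝ)) ^ 4 := pow_le_pow_left₀ (by positivity) hj 4
        _ = Real.log Y := by
            rw [← Real.rpow_natCast, ← Real.rpow_mul (by linarith)]
            norm_num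
    have h3 : 2 * j < 2 ^ (2 * j) := Nat.lt_two_pow_self
    have h4 : 2 ^ (2 * j) ≤ 2 ^ (4 * j) := Nat.pow_le_pow_right (by norm_num) (by omega)
    have h5 : ((2 * j : ℕ) : ℝ) ≤ (⌈Real.log Y⌉₊ : ℝ) := by
      calc ((2 * j : ℕ) : ℝ) ≤ ((2 ^ (4 * j) : ℕ) : ℝ) := by exact_mod_cast (h3.le.trans h4)
        _ = (2 : ℝ) ^ (4 * j) := by push_cast; rfl
        _ ≤ Real.log Y := h2
        _ ≤ (⌈Real.log Y⌉₊ : ℝ) := Nat.le_ceil _
    exact_mod_cast h5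
  unfold Mj Mrj Mf
  rw [mul_zero, mul_comm, Finset.prod_Ico_consecutive _ (Nat.zero_le _) h1]

/-! ### the quadratic form without theta -/

lemma EN_Dp_sq {S : Finset ℕ} (m : ℕ → ℝ) (hS : ∀ a ∈ S, a ≠ 0) {N : ℕ}
    (hN : ∀ a ∈ S, ∀ a' ∈ S, a * a' < N) : EN N (fun X => Dp S m X ^ 2) = Q0 S m := by
  have h1 : EN N (fun X => Dp S m X ^ 2) =
      EN N (fun X => ∑ a ∈ S, ∑ a' ∈ S, m a * m a' * X (a * a')) := by
    refine EN_congr fun ω => ?_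
    unfold Dp
    rw [sq, Finset.sum_mul_sum]
    refine Finset.sum_congr rfl fun a ha => Finset.sum_congr rfl fun a' ha' => ?_
    rw [Xf_mul ω (hS a ha) (hS a' ha')]
    ring
  rw [h1, EN_sum N S (fun a X => ∑ a' ∈ S, m a * m a' * X (a * a'))]
  unfold Q0
  refine Finset.sum_congr rfl fun a ha => ?_
  rw [EN_sum N S (fun a' X => m a * m a' * X (a * a'))]
  refine Finset.sum_congr rfl fun a' ha' => ?_
  rw [EN_const_mul N (m a * m a') (fun X => X (a * a'))]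
  rw [pfOrth N (a * a') (Nat.mem_smoothNumbers_of_lt
    (Nat.mul_pos (Nat.pos_of_ne_zero (hS a ha)) (Nat.pos_of_ne_zero (hS a' ha'))) (hN a ha a' ha'))]

/-- the bound for sums over `m` of a product of blocks -/
lemma blocks_sum (hD : StDiv) (h0 : StTw0) (hP : StPoly) : ∃ C : ℝ, 1 ≤ C ∧
    ∀ (Y : ℕ) (K : ℝ) (k₁ k₂ : ℕ) (Z : ℝ), 3 ≤ Y → 1 ≤ K → 0 ≤ Z →
    (∀ N : ℕ, yk (Real.log Y) 0 < N → EN N (fun X => (Mf (Real.log Y) K k₁ k₂ X) ^ 2) ≤ Z) →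
    ∑ m ∈ sqf Y, (Mf (Real.log Y) K k₁ k₂ (fun n => chi m n)) ^ 2 ≤ C * Y * (Z + 1) := by
  obtain ⟨C, hC1, hT⟩ := tr0 hD h0
  have hc0 := H1.c0_pos
  refine ⟨max 1 (H1.c0⁻¹ * (5040 + C)), le_max_left _ _, ?_⟩
  intro Y K k₁ k₂ Z hY hK hZ hE
  have hL := logY_ge_one hY
  have hY1 : (1 : ℝ) ≤ Y := by exact_mod_cast (by omega : 1 ≤ Y)
  have hY0 : (0 : ℝ) < Y := by linarith
  obtain ⟨S, m, hM, hS⟩ := hP (Real.log Y) K k₁ k₂ hL (by linarith)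
  have hS0 : ∀ a ∈ S, a ≠ 0 := fun a ha => (hS a ha).2.1.1
  set Λ := Real.exp (Real.log Y / 1600) with hΛdef
  have hΛ : ∀ a ∈ S, (a : ℝ) ≤ Λ := by
    intro a ha
    refine (hS a ha).2.2.1.trans ?_
    refine Real.exp_le_exp.2 ?_
    have : Real.exp (-(k₁ : ℝ) / 2) ≤ 1 := Real.exp_le_one_iff.2 (by
      have : (0 : ℝ) ≤ k₁ := Nat.cast_nonneg _
      linarith)
    calc Real.log Y / 1600 * Real.exp (-(k₁ : ℝ) / 2) ≤ Real.log Y / 1600 * 1 := by gcongr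
      _ = _ := mul_one _
  have hΛ4 : Λ ^ 4 ≤ Y := by
    rw [hΛdef, ← Real.exp_nat_mul]
    calc Real.exp (((4 : ℕ) : ℝ) * (Real.log Y / 1600)) ≤ Real.exp (Real.log Y) := by
          refine Real.exp_le_exp.2 ?_
          push_cast
          linarith
      _ = Y := Real.exp_log hY0
  have e1 : ∑ k ∈ sqf Y, (Mf (Real.log Y) K k₁ k₂ (fun n => chi k n)) ^ 2 =
      ∑ k ∈ sqf Y, Dp S m (fun n => chi k n) ^ 2 := by
    refine Finset.sum_congr rfl fun k _ => ?_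
    rw [hM _ (chi_CM k)]
    rfl
  rw [e1]
  have h2 := sqf_le Y (by omega) (G := fun h => Dp S m (fun n => chi h n)) (Dp_abs_le S m)
  refine h2.trans ?_
  have h3 := hT Y Λ S m hY1 (fun a ha => (hS a ha).1) (fun a ha => (hS a ha).2.1) hΛ
  have hQ0 : Q0 S m ≤ Z := by
    set N := ⌊yk (Real.log Y) 0⌋₊ + 1 + ∑ a ∈ S, ∑ a' ∈ S, a * a' with hN
    have hN1 : yk (Real.log Y) 0 < N := by
      have h4 := Nat.lt_floor_add_one (yk (Real.log Y) 0)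
      have h5 : ((⌊yk (Real.log Y) 0⌋₊ : ℝ) + 1) ≤ N := by
        rw [hN]
        push_cast
        have : (0 : ℝ) ≤ ∑ a ∈ S, ∑ a' ∈ S, (a : ℝ) * a' := by positivity
        linarith
      linarith
    have hN2 : ∀ a ∈ S, ∀ a' ∈ S, a * a' < N := by
      intro a ha a' ha'
      have h6 : a * a' ≤ ∑ a' ∈ S, a * a' :=
        Finset.single_le_sum (f := fun a' => a * a') (fun _ _ => Nat.zero_le _) ha'
      have h7 : ∑ a' ∈ S, a * a' ≤ ∑ a ∈ S, ∑ a' ∈ S, a * a' :=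
        Finset.single_le_sum (f := fun a => ∑ a' ∈ S, a * a') (fun _ _ => Nat.zero_le _) ha
      omega
    rw [← EN_Dp_sq m hS0 hN2]
    refine le_trans (le_of_eq ?_) (hE N hN1)
    refine EN_congr fun ω => ?_
    rw [hM _ (Xf_CM ω)]
    rfl
  have h4 : ∑' h : ℤ, H1.ah Y h * Dp S m (fun n => chi h n) ^ 2 ≤ 5040 * Y * Z + C * Y := by
    have h5 := (abs_le.1 h3).2
    have h6 : 5040 * (Y : ℝ) * Q0 S m ≤ 5040 * Y * Z := by gcongr
    have h7 : C * Λ ^ 4 ≤ C * Y := by gcongr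
    linarith
  calc H1.c0⁻¹ * ∑' h : ℤ, H1.ah Y h * Dp S m (fun n => chi h n) ^ 2
      ≤ H1.c0⁻¹ * (5040 * Y * Z + C * Y) := by gcongr
    _ ≤ H1.c0⁻¹ * ((5040 + C) * Y * (Z + 1)) := by
        refine mul_le_mul_of_nonneg_left ?_ (by positivity)
        nlinarith [mul_nonneg hY0.le hZ, mul_nonneg (by linarith : (0 : ℝ) ≤ C) (mul_nonneg hY0.le hZ)]
    _ = (H1.c0⁻¹ * (5040 + C)) * Y * (Z + 1) := by ring
    _ ≤ max 1 (H1.c0⁻¹ * (5040 + C)) * Y * (Z + 1) := by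
        gcongr
        exact le_max_right _ _

lemma part2 (hD : StDiv) (h0 : StTw0) (hP : StPoly) (hR : StR4) : ∃ (A : ℕ) (C : ℝ), 1 ≤ C ∧
    ∀ (Y : ℕ) (K : ℝ), 3 ≤ Y → 1 ≤ K → ∀ j : ℕ,
      ∑ m ∈ sqf Y, (Mrj Y K j m) ^ 2 ≤ C * Y * (2 ^ j) ^ A := by
  obtain ⟨C, hC1, hB⟩ := blocks_sum hD h0 hP
  obtain ⟨C', hC'1, hR'⟩ := hR
  obtain ⟨A, hA⟩ := pow_unbounded_of_one_lt (C' ^ 2) (one_lt_two (α := ℝ))
  refine ⟨A, 2 * C, by linarith, ?_⟩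
  intro Y K hY hK j
  have hL := logY_ge_one hY
  have hZ : (0 : ℝ) ≤ C' ^ (2 * j) := by positivity
  have h1 := hB Y K 0 (2 * j) (C' ^ (2 * j)) hY hK hZ
    (fun N hN => (hR' (Real.log Y) K (2 * j) N hL (by linarith) hN).1)
  have h2 : C' ^ (2 * j) ≤ (2 ^ j) ^ A := by
    calc C' ^ (2 * j) = (C' ^ 2) ^ j := by rw [pow_mul]
      _ ≤ (2 ^ A) ^ j := pow_le_pow_left₀ (by positivity) hA.le j
      _ = (2 ^ j) ^ A := by rw [← pow_mul, ← pow_mul, mul_comm]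
  have h3 : (1 : ℝ) ≤ (2 ^ j) ^ A := one_le_pow₀ (one_le_pow₀ (by norm_num))
  unfold Mrj
  refine h1.trans ?_
  have hY0 : (0 : ℝ) ≤ Y := Nat.cast_nonneg _
  calc C * Y * (C' ^ (2 * j) + 1) ≤ C * Y * ((2 ^ j) ^ A + (2 ^ j) ^ A) := by gcongr
    _ = 2 * C * Y * (2 ^ j) ^ A := by ring

lemma part3 (hD : StDiv) (h0 : StTw0) (hP : StPoly) (hR : StR4) : ∃ (A : ℕ) (C : ℝ), 1 ≤ C ∧
    ∀ (Y : ℕ) (K : ℝ), 3 ≤ Y → 1 ≤ K →
      ∑ m ∈ sqf Y, (Mj Y K 0 m) ^ 2 ≤ C * Y * Real.log Y ^ A := by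
  obtain ⟨C, hC1, hB⟩ := blocks_sum hD h0 hP
  obtain ⟨C', hC'1, hR'⟩ := hR
  refine ⟨⌈C'⌉₊, C * (C' + 1), by nlinarith, ?_⟩
  intro Y K hY hK
  have hL := logY_ge_one hY
  have hL0 : 0 ≤ Real.log Y := by linarith
  have hZ : (0 : ℝ) ≤ C' * Real.log Y ^ C' := by positivity
  have h1 := hB Y K 0 ⌈Real.log Y⌉₊ (C' * Real.log Y ^ C') hY hK hZ
    (fun N hN => (hR' (Real.log Y) K 0 N hL (by linarith) hN).2)
  have h2 : Real.log Y ^ C' ≤ Real.log Y ^ ⌈C'⌉₊ := by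
    rw [← Real.rpow_natCast]
    exact Real.rpow_le_rpow_of_exponent_le hL (Nat.le_ceil _)
  have h3 : (1 : ℝ) ≤ Real.log Y ^ ⌈C'⌉₊ := one_le_pow₀ hL
  have hY0 : (0 : ℝ) ≤ Y := Nat.cast_nonneg _
  unfold Mj
  rw [mul_zero]
  refine h1.trans ?_
  calc C * Y * (C' * Real.log Y ^ C' + 1)
      ≤ C * Y * (C' * Real.log Y ^ ⌈C'⌉₊ + Real.log Y ^ ⌈C'⌉₊) := by gcongr
    _ = C * (C' + 1) * Y * Real.log Y ^ ⌈C'⌉₊ := by ring

/-! ### the windows -/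

lemma part1 (hC : StCoef) (hD : StDiv) (h2 : StTw2) (hPass : StPass) (hR : StR2) (hP : StPoly)
    (hRep : StRepC) :
    ∃ (n A : ℕ) (C : ℝ), 1 ≤ C ∧ ∀ (Y : ℕ) (K : ℝ), 3 ≤ Y → 1 ≤ K → K ≤ Real.log Y →
    ∀ (j : ℕ) (h : ℝ → ℝ) (b : ℝ), (2 : ℝ) ^ j ≤ Real.log Y ^ (1 / 4 : ℝ) → ContDiff ℝ n h →
      (∀ x, h x ≠ 0 → wj Y j ≤ x ∧ x ≤ 3 * Real.log Y) → 0 ≤ b →
      (∀ i ≤ n, ∀ x, |iteratedDeriv i h x| ≤ b * (wj Y j)⁻¹ ^ i) →
      ∑ m ∈ sqf Y, (Mj Y K j m * Fw Y h m) ^ 2 ≤ C * Y * (K * 2 ^ j) ^ A * b ^ 2 := by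
  obtain ⟨C₂, hC₂, A₂, hT⟩ := tr2 hC hD h2
  obtain ⟨CR, hCR, AR, hR'⟩ := hR
  obtain ⟨CF, hCF, hF⟩ := hRep AR
  obtain ⟨CE, hCE, hE⟩ := pow_exp_bdd A₂ (c := 1 / 40) (by norm_num)
  have hc0 := H1.c0_pos
  refine ⟨AR + 2, AR + 2, max 1 (H1.c0⁻¹ * (5040 * (16 * (CR * 20 ^ AR) *
    (Real.exp 1 * CF) ^ 2) + C₂ * CE)), le_max_left _ _, ?_⟩
  intro Y K hY hK hKL j h b hj hh hsupp hb hder
  have hL := logY_ge_one hY
  have hL0 : 0 < Real.log Y := by linarith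
  have hY1 : (1 : ℝ) ≤ Y := by exact_mod_cast (by omega : 1 ≤ Y)
  have hY0 : (0 : ℝ) < Y := by linarith
  have hw : 0 < wj Y j := by unfold wj; positivity
  have h2j : (1 : ℝ) ≤ 2 ^ j := one_le_pow₀ (by norm_num)
  have hwL : wj Y j * (20 * 2 ^ j) = Real.log Y := by
    unfold wj
    field_simp
  rcases hb.eq_or_lt with hb0 | hb0
  · -- `b = 0`
    have h0 : ∀ x, h x = 0 := by
      intro x
      have := hder 0 (Nat.zero_le _) x
      rw [iteratedDeriv_zero, ← hb0, zero_mul] at this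
      exact abs_eq_zero.1 (le_antisymm this (abs_nonneg _))
    have e0 : ∀ m : ℤ, Fw Y h m = 0 := by
      intro m
      unfold Fw Fn cfY
      simp [h0]
    simp only [e0, mul_zero]
    rw [← hb0]
    simp
  -- `b > 0`
  obtain ⟨S, m, hM, hS⟩ := hP (Real.log Y) K (2 * j) ⌈Real.log Y⌉₊ hL (by linarith)
  have hS0 : ∀ a ∈ S, a ≠ 0 := fun a ha => (hS a ha).2.1.1
  set Λ := Real.exp (Real.log Y / 1600 * Real.exp (-((2 * j : ℕ) : ℝ) / 2)) with hΛdef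
  have hΛ : ∀ a ∈ S, (a : ℝ) ≤ Λ := fun a ha => (hS a ha).2.2.1
  set U := Real.exp (wj Y j) / Y with hUdef
  have hU0 : 0 < U := by positivity
  have hexpo : Real.exp (-((2 * j : ℕ) : ℝ) / 2) ≤ (2 ^ j)⁻¹ := by
    refine le_trans (le_of_eq ?_) (exp_neg_le_two j)
    congr 1
    push_cast
    ring
  have hexp1 : Real.log Y * Real.exp (-((2 * j : ℕ) : ℝ) / 2) ≤ 20 * wj Y j := by
    calc Real.log Y * Real.exp (-((2 * j : ℕ) : ℝ) / 2) ≤ Real.log Y * (2 ^ j)⁻¹ := by gcongr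
      _ = 20 * wj Y j := by
          rw [← hwL]
          field_simp
  have hwle : wj Y j ≤ Real.log Y := by
    rw [← hwL]
    nlinarith
  have hUexp : U = Real.exp (wj Y j - Real.log Y) := by
    rw [hUdef, Real.exp_sub, Real.exp_log hY0]
  have hU1 : Real.exp (-Real.log Y) ≤ U := by
    rw [hUexp]
    exact Real.exp_le_exp.2 (by linarith)
  have hU2 : U ≤ 1 := by
    rw [hUexp]
    exact Real.exp_le_one_iff.2 (by linarith)
  have hsm : ∀ x, |h x| ≤ b := by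
    intro x
    have := hder 0 (Nat.zero_le _) x
    rwa [iteratedDeriv_zero, pow_zero, mul_one] at this
  have hmeas : Measurable h := hh.continuous.measurable
  have hfm : Measurable (cfY Y h) := by
    unfold cfY
    exact hmeas.comp (Real.measurable_log.comp (measurable_id.mul_const _))
  have hf0 : ∀ u, 0 < u → u < U → cfY Y h u = 0 := by
    intro u hu0 hu
    unfold cfY
    by_contra hne
    have h3 := (hsupp _ hne).1
    have h4 : Real.log (u * Y) < wj Y j := by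
      rw [Real.log_lt_iff_lt_exp (by positivity)]
      rw [hUdef, lt_div_iff₀ hY0] at hu
      exact hu
    linarith
  have hlogΛ : 2 * Real.log Λ ≤ Real.log Y := by
    rw [hΛdef, Real.log_exp]
    nlinarith
  -- from squarefree `m` to all integers
  have hfb : ∀ u, 0 < u → |cfY Y h u| ≤ b := fun u _ => hsm _
  obtain ⟨M, hM0, hMb⟩ := Fn_bdd hC hb0 hU0 hfm hfb hf0
  have hG : ∀ k : ℤ, |Dp S m (fun n => chi k n) * Fn (cfY Y h) k| ≤ (∑ a ∈ S, |m a|) * M := by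
    intro k
    rw [abs_mul]
    exact mul_le_mul (Dp_abs_le S m k) (hMb k) (abs_nonneg _)
      (Finset.sum_nonneg fun _ _ => abs_nonneg _)
  have h3 := sqf_le Y (by omega) hG
  have e1 : ∑ k ∈ sqf Y, (Mj Y K j k * Fw Y h k) ^ 2 =
      ∑ k ∈ sqf Y, (Dp S m (fun n => chi k n) * Fn (cfY Y h) k) ^ 2 := by
    refine Finset.sum_congr rfl fun k _ => ?_
    unfold Mj Fw
    rw [hM _ (chi_CM k)]
    rfl
  rw [e1]
  refine h3.trans ?_
  have e2 : ∑' k : ℤ, H1.ah Y k * (Dp S m (fun n => chi k n) * Fn (cfY Y h) k) ^ 2 =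
      ∑' k : ℤ, H1.ah Y k * (Dp S m (fun n => chi k n) ^ 2 * Fn (cfY Y h) k ^ 2) := by
    refine tsum_congr fun k => ?_
    ring
  rw [e2]
  have h4 := hT (Real.log Y) Y U b Λ S m (cfY Y h) hL hY1 le_rfl hU1 hU2 hb0 hfm hfb hf0
    (fun a ha => (hS a ha).1) (fun a ha => (hS a ha).2.1) hΛ hlogΛ
  -- the error term
  have herr : C₂ * Real.log Y ^ A₂ * b ^ 2 * Λ ^ 4 / U ≤ C₂ * CE * Y * b ^ 2 := by
    have h5 : Λ ^ 4 / U ≤ Y * Real.exp (-(1 / 40 * Real.log Y ^ (3 / 4 : ℝ))) := by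
      rw [hΛdef, ← Real.exp_nat_mul, hUexp, ← Real.exp_sub]
      have e5 : (Y : ℝ) * Real.exp (-(1 / 40 * Real.log Y ^ (3 / 4 : ℝ))) =
          Real.exp (Real.log Y + -(1 / 40 * Real.log Y ^ (3 / 4 : ℝ))) := by
        rw [Real.exp_add, Real.exp_log hY0]
      rw [e5]
      refine Real.exp_le_exp.2 ?_
      have h6 := wj_ge hY hj
      push_cast
      push_cast at hexp1
      linarith
    have h6 := hE (Real.log Y) hL
    calc C₂ * Real.log Y ^ A₂ * b ^ 2 * Λ ^ 4 / U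
        = C₂ * Real.log Y ^ A₂ * b ^ 2 * (Λ ^ 4 / U) := by ring
      _ ≤ C₂ * Real.log Y ^ A₂ * b ^ 2 * (Y * Real.exp (-(1 / 40 * Real.log Y ^ (3 / 4 : ℝ)))) := by
          gcongr
      _ = C₂ * (Real.log Y ^ A₂ * Real.exp (-(1 / 40 * Real.log Y ^ (3 / 4 : ℝ)))) * Y * b ^ 2 := by
          ring
      _ ≤ C₂ * CE * Y * b ^ 2 := by gcongr
  -- the main term
  obtain ⟨g, hg1, hg2, hg3, hg4, hg5⟩ := hF Y j h b hY hb (by exact_mod_cast hh) hsupp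
    (fun i hi x => hder i hi x)
  set N₀ := ⌊yk (Real.log Y) 0⌋₊ + 1 with hN₀
  have hmain : Q2 S m (cfY Y h) ≤ 16 * (CR * 20 ^ AR * (K * 2 ^ j) ^ AR) *
      ((Y : ℝ) ^ (1 / Real.log Y) * ∫ τ, ‖g τ‖ * (1 + |τ| * wj Y j) ^ AR) ^ 2 := by
    refine hPass Y S m (CR * 20 ^ AR * (K * 2 ^ j) ^ AR) (wj Y j) (1 / Real.log Y) U b AR N₀ h g
      (by omega) hU0 (by positivity) (by rw [div_le_one hL0]; exact hL) (by positivity) hw hmeas hsm
      hf0 hS0 ?_ hg1 hg2 hg4 ?_ ?_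
    · intro a ha p hp hpa
      have h5 := (hS a ha).2.2.2 p hp hpa
      have h6 := h5.trans (yk_mono hL0.le (2 * j))
      have h7 := Nat.lt_floor_add_one (yk (Real.log Y) 0)
      have h8 : (p : ℝ) < N₀ := by
        rw [hN₀]
        push_cast
        linarith
      exact_mod_cast h8
    · intro x
      have := hg3 x
      push_cast at this ⊢
      exact this
    · intro N τ hN
      have hN' : yk (Real.log Y) 0 < N := by
        have h7 := Nat.lt_floor_add_one (yk (Real.log Y) 0)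
        have h8 : (N₀ : ℝ) ≤ N := by exact_mod_cast hN
        rw [hN₀] at h8
        push_cast at h8
        linarith
      have h5 := hR' (Real.log Y) K (1 / Real.log Y) τ j N hL hK hKL
        (one_div_le_one_div_of_le hL0 (by linarith)) (by
          rw [div_le_div_iff_of_pos_right hL0]
          linarith) hN'
      have e5 : EN N (fun X => (∑ a ∈ S, m a * X a) ^ 2 *
          ‖LN N X (1 + ((1 / Real.log Y : ℝ) : ℂ) + τ * Complex.I)‖ ^ 2) =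
          EN N (fun X => (Mf (Real.log Y) K (2 * j) ⌈Real.log Y⌉₊ X) ^ 2 *
          ‖LN N X (1 + ((1 / Real.log Y : ℝ) : ℂ) + τ * Complex.I)‖ ^ 2) := by
        refine EN_congr fun ω => ?_
        rw [hM _ (Xf_CM ω)]
      rw [e5]
      refine h5.trans ?_
      have h6 : 1 + |τ| * Real.log Y / 2 ^ j ≤ 20 * (1 + |τ| * wj Y j) := by
        rw [← hwL]
        have : |τ| * (wj Y j * (20 * 2 ^ j)) / 2 ^ j = 20 * (|τ| * wj Y j) := by
          field_simp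
        rw [this]
        linarith
      have h7 : (0 : ℝ) ≤ |τ| * wj Y j := by positivity
      have h8 : (1 : ℝ) ≤ 1 + |τ| * wj Y j := by linarith
      have h9 : (0 : ℝ) ≤ |τ| * Real.log Y / 2 ^ j := by positivity
      calc CR * (K * 2 ^ j) ^ AR * (1 + |τ| * Real.log Y / 2 ^ j) ^ AR
          ≤ CR * (K * 2 ^ j) ^ AR * (20 * (1 + |τ| * wj Y j)) ^ AR := by gcongr
        _ = CR * 20 ^ AR * (K * 2 ^ j) ^ AR * (1 + |τ| * wj Y j) ^ AR := by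
            rw [mul_pow 20]
            ring
        _ ≤ CR * 20 ^ AR * (K * 2 ^ j) ^ AR * (1 + |τ| * wj Y j) ^ (2 * AR) :=
            mul_le_mul_of_nonneg_left (pow_le_pow_right₀ h8 (by omega)) (by positivity)
  have hYe : (Y : ℝ) ^ (1 / Real.log Y) = Real.exp 1 := by
    rw [Real.rpow_def_of_pos hY0]
    congr 1
    field_simp
  have hint0 : 0 ≤ ∫ τ, ‖g τ‖ * (1 + |τ| * wj Y j) ^ AR :=
    integral_nonneg fun τ => by positivity
  have hmain2 : Q2 S m (cfY Y h) ≤ (16 * (CR * 20 ^ AR) * (Real.exp 1 * CF) ^ 2) *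
      (K * 2 ^ j) ^ (AR + 2) * b ^ 2 := by
    refine hmain.trans ?_
    rw [hYe]
    calc 16 * (CR * 20 ^ AR * (K * 2 ^ j) ^ AR) *
          (Real.exp 1 * ∫ τ, ‖g τ‖ * (1 + |τ| * wj Y j) ^ AR) ^ 2
        ≤ 16 * (CR * 20 ^ AR * (K * 2 ^ j) ^ AR) * (Real.exp 1 * (CF * b * 2 ^ j)) ^ 2 := by
          gcongr
      _ = (16 * (CR * 20 ^ AR) * (Real.exp 1 * CF) ^ 2) * ((K * 2 ^ j) ^ AR * (2 ^ j) ^ 2) *
            b ^ 2 := by ring
      _ ≤ (16 * (CR * 20 ^ AR) * (Real.exp 1 * CF) ^ 2) * (K * 2 ^ j) ^ (AR + 2) * b ^ 2 := by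
          gcongr
          rw [pow_add]
          gcongr
          calc (2 : ℝ) ^ j = 1 * 2 ^ j := (one_mul _).symm
            _ ≤ K * 2 ^ j := by gcongr
  have hKj : (1 : ℝ) ≤ (K * 2 ^ j) ^ (AR + 2) := one_le_pow₀ (by nlinarith)
  have h5 := (abs_le.1 h4).2
  have h6 : ∑' k : ℤ, H1.ah Y k * (Dp S m (fun n => chi k n) ^ 2 * Fn (cfY Y h) k ^ 2) ≤
      (5040 * (16 * (CR * 20 ^ AR) * (Real.exp 1 * CF) ^ 2) + C₂ * CE) * Y *
        (K * 2 ^ j) ^ (AR + 2) * b ^ 2 := by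
    have h7 : 5040 * (Y : ℝ) * Q2 S m (cfY Y h) ≤ 5040 * Y *
        ((16 * (CR * 20 ^ AR) * (Real.exp 1 * CF) ^ 2) * (K * 2 ^ j) ^ (AR + 2) * b ^ 2) := by
      gcongr
    have h8 : C₂ * CE * Y * b ^ 2 ≤ C₂ * CE * Y * b ^ 2 * (K * 2 ^ j) ^ (AR + 2) :=
      le_mul_of_one_le_right (by positivity) hKj
    calc ∑' k : ℤ, H1.ah Y k * (Dp S m (fun n => chi k n) ^ 2 * Fn (cfY Y h) k ^ 2)
        ≤ 5040 * Y * Q2 S m (cfY Y h) + C₂ * Real.log Y ^ A₂ * b ^ 2 * Λ ^ 4 / U := by linarith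
      _ ≤ 5040 * Y * ((16 * (CR * 20 ^ AR) * (Real.exp 1 * CF) ^ 2) * (K * 2 ^ j) ^ (AR + 2) *
            b ^ 2) + C₂ * CE * Y * b ^ 2 * (K * 2 ^ j) ^ (AR + 2) := by linarith
      _ = _ := by ring
  calc H1.c0⁻¹ * ∑' k : ℤ, H1.ah Y k * (Dp S m (fun n => chi k n) ^ 2 * Fn (cfY Y h) k ^ 2)
      ≤ H1.c0⁻¹ * ((5040 * (16 * (CR * 20 ^ AR) * (Real.exp 1 * CF) ^ 2) + C₂ * CE) * Y *
        (K * 2 ^ j) ^ (AR + 2) * b ^ 2) := by gcongr
    _ = (H1.c0⁻¹ * (5040 * (16 * (CR * 20 ^ AR) * (Real.exp 1 * CF) ^ 2) + C₂ * CE)) * Y *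
        (K * 2 ^ j) ^ (AR + 2) * b ^ 2 := by ring
    _ ≤ _ := by
        gcongr
        exact le_max_right _ _

end

end Moll

end P004
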