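import Vale.Agent.P004.H394.Moll2
import Vale.Agent.P004.H394.Wf

/-!
# P004, module W, part 3: the main term
-/

open Real MeasureTheory Set Filter Topology

namespace P004

namespace Moll

open H128

/-- `Γ ≤ 1` on `[1, 2]` -/
lemma Gam_le_one {σ : ℝ} (h0 : 0 < σ) (h1 : σ ≤ 1) : Real.Gamma (1 + σ) ≤ 1 := by
  have h := Real.convexOn_Gamma.2 (show (1 : ℝ) ∈ Ioi 0 by simp) (show (2 : ℝ) ∈ Ioi 0 by simp)
    (show 0 ≤ 1 - σ by linarith) h0.le (by ring)
  simp only [smul_eq_mul, Real.Gamma_one, Real.Gamma_two] at h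
  rw [show (1 - σ) * 1 + σ * 2 = 1 + σ by ring] at h
  linarith

/-! ### the three pieces of the weight -/

/-- `e^{z₀ x}` -/
noncomputable def hA (Y : ℕ) (K : ℝ) (x : ℝ) : ℝ := Real.exp (K / Real.log Y * x)

/-- `(1 - η(x/w₀)) e^{z₀ x}` -/
noncomputable def hB (Y : ℕ) (K : ℝ) (x : ℝ) : ℝ :=
  (1 - ηf (x / wj Y 0)) * Real.exp (K / Real.log Y * x)

/-- `η(x/(3L/2)) e^{z₀ x}` -/
noncomputable def hC (Y : ℕ) (K : ℝ) (x : ℝ) : ℝ :=
  ηf (x / (3 / 2 * Real.log Y)) * Real.exp (K / Real.log Y * x)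

section

variable {Y : ℕ} {K : ℝ}

lemma psi_split (hY : 3 ≤ Y) (K x : ℝ) :
    psi Y x * Real.exp (K / Real.log Y * x) = hA Y K x - hB Y K x - hC Y K x := by
  have hL := Wf.logY_pos hY
  unfold psi hA hB hC
  by_cases h : ηf (x / (3 / 2 * Real.log Y)) = 0
  · rw [h]
    ring
  · have h1 : 1 < x / (3 / 2 * Real.log Y) := by
      by_contra h2
      exact h (Wf.eta_zero (not_lt.1 h2))
    have h2 : ηf (x / wj Y 0) = 1 := by
      apply Wf.eta_one
      rw [lt_div_iff₀ (by positivity)] at h1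
      unfold wj
      rw [le_div_iff₀ (by positivity)]
      linarith
    rw [h2]
    ring

lemma eta_cont : Continuous ηf := (Wf.eta_smooth 0).continuous

lemma hA_meas (Y : ℕ) (K : ℝ) : Measurable (hA Y K) := by
  unfold hA
  fun_prop

lemma hB_meas (Y : ℕ) (K : ℝ) : Measurable (hB Y K) := by
  have := eta_cont.measurable
  unfold hB
  fun_prop

lemma hC_meas (Y : ℕ) (K : ℝ) : Measurable (hC Y K) := by
  have := eta_cont.measurable
  unfold hC
  fun_prop

lemma hA_abs (Y : ℕ) (K x : ℝ) : |hA Y K x| ≤ Real.exp (K / Real.log Y * x) := by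
  unfold hA
  rw [abs_of_pos (Real.exp_pos _)]

lemma hB_abs (Y : ℕ) (K x : ℝ) : |hB Y K x| ≤ Real.exp (K / Real.log Y * x) := by
  unfold hB
  rw [abs_mul, abs_of_pos (Real.exp_pos _), abs_of_nonneg (by linarith [Wf.eta_le_one (x / wj Y 0)])]
  exact mul_le_of_le_one_left (Real.exp_pos _).le (by linarith [Wf.eta_nonneg (x / wj Y 0)])

lemma hC_abs (Y : ℕ) (K x : ℝ) : |hC Y K x| ≤ Real.exp (K / Real.log Y * x) := by
  unfold hC
  rw [abs_mul, abs_of_pos (Real.exp_pos _), abs_of_nonneg (Wf.eta_nonneg _)]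
  exact mul_le_of_le_one_left (Real.exp_pos _).le (Wf.eta_le_one _)

lemma cfY_meas {h : ℝ → ℝ} (hh : Measurable h) (Y : ℕ) : Measurable (cfY Y h) := by
  unfold cfY
  exact hh.comp (Real.measurable_log.comp (measurable_id.mul_const _))

/-- the dominating function -/
lemma dom_int (Y : ℕ) {z : ℝ} (hz : 0 ≤ z) {n : ℕ} (hn : 1 ≤ n) :
    IntegrableOn (fun u : ℝ => Real.exp (-π * n * u) * (u * Y) ^ z) (Ioi 0) ∧
    ∫ u in Ioi (0 : ℝ), Real.exp (-π * n * u) * (u * Y) ^ z =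
      (Y : ℝ) ^ z * (Real.Gamma (1 + z) * π ^ (-1 - z)) * (n : ℝ) ^ (-1 - z) := by
  have hn0 : (0 : ℝ) < n := by exact_mod_cast (by omega : 0 < n)
  have hr : (0 : ℝ) < π * n := by positivity
  have e1 : ∀ u ∈ Ioi (0 : ℝ), Real.exp (-π * n * u) * (u * Y) ^ z =
      (Y : ℝ) ^ z * (u ^ (1 + z - 1) * Real.exp (-(π * n * u))) := by
    intro u hu
    have hu0 : (0 : ℝ) < u := hu
    rw [Real.mul_rpow hu0.le (Nat.cast_nonneg _)]
    have : 1 + z - 1 = z := by ring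
    rw [this]
    ring_nf
  constructor
  · have h1 : IntegrableOn (fun u : ℝ => u ^ (1 + z - 1) * Real.exp (-(π * n) * u)) (Ioi 0) :=
      integrableOn_rpow_mul_exp_neg_mul_rpow (s := 1 + z - 1) (p := 1) (b := π * n) (by linarith)
        one_pos hr |>.congr_fun (fun u _ => by simp) measurableSet_Ioi
    have h2 : IntegrableOn (fun u : ℝ => (Y : ℝ) ^ z * (u ^ (1 + z - 1) *
        Real.exp (-(π * n) * u))) (Ioi 0) := h1.const_mul _
    refine h2.congr_fun (fun u hu => ?_) measurableSet_Ioi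
    rw [e1 u hu]
    simp only [neg_mul]
  · rw [setIntegral_congr_fun measurableSet_Ioi e1, integral_const_mul,
      Real.integral_rpow_mul_exp_neg_mul_Ioi (by linarith) hr]
    have e2 : (1 / (π * n)) ^ (1 + z) = π ^ (-1 - z) * (n : ℝ) ^ (-1 - z) := by
      rw [one_div, Real.inv_rpow hr.le, ← Real.rpow_neg hr.le, Real.mul_rpow Real.pi_pos.le hn0.le]
      ring_nf
    rw [e2]
    ring

/-- a weight dominated by `e^{z₀ x}` -/
structure Dom (Y : ℕ) (z : ℝ) (h : ℝ → ℝ) : Prop where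
  meas : Measurable h
  le : ∀ x, |h x| ≤ Real.exp (z * x)

lemma Dom.cf_le {z : ℝ} {h : ℝ → ℝ} (hd : Dom Y z h) (hY : 1 ≤ Y) {u : ℝ} (hu : 0 < u) :
    |cfY Y h u| ≤ (u * Y) ^ z := by
  have hY0 : (0 : ℝ) < Y := by exact_mod_cast (by omega : 0 < Y)
  unfold cfY
  refine (hd.le _).trans (le_of_eq ?_)
  rw [Real.rpow_def_of_pos (by positivity), mul_comm]

lemma Dom.int {z : ℝ} {h : ℝ → ℝ} (hd : Dom Y z h) (hY : 1 ≤ Y) (hz : 0 ≤ z) {n : ℕ}
    (hn : 1 ≤ n) : IntegrableOn (fun u : ℝ => Real.exp (-π * n * u) * cfY Y h u) (Ioi 0) := by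
  refine Integrable.mono' (dom_int Y hz hn).1 ?_ ?_
  · exact ((by fun_prop : Measurable fun u : ℝ => Real.exp (-π * n * u)).mul
      (cfY_meas hd.meas Y)).aestronglyMeasurable
  · filter_upwards [ae_restrict_mem measurableSet_Ioi] with u hu
    rw [norm_mul, Real.norm_of_nonneg (Real.exp_pos _).le, Real.norm_eq_abs]
    exact mul_le_mul_of_nonneg_left (hd.cf_le hY hu) (Real.exp_pos _).le

lemma Dom.bet_le (hC : StCoef) {z : ℝ} {h : ℝ → ℝ} (hd : Dom Y z h) (hY : 1 ≤ Y) (hz : 0 ≤ z)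
    (n : ℕ) : |bet (cfY Y h) n| ≤
      4 * ((Y : ℝ) ^ z * (Real.Gamma (1 + z) * π ^ (-1 - z))) * (|(ca n : ℝ)| * (n : ℝ) ^ (-1 - z)) := by
  rcases Nat.eq_zero_or_pos n with rfl | hn
  · rw [bet_zero hC, hC.zero]
    simp
  · have h1 : |∫ u in Ioi (0 : ℝ), Real.exp (-π * n * u) * cfY Y h u| ≤
        (Y : ℝ) ^ z * (Real.Gamma (1 + z) * π ^ (-1 - z)) * (n : ℝ) ^ (-1 - z) := by
      rw [← (dom_int Y hz hn).2, ← Real.norm_eq_abs]
      refine norm_integral_le_of_norm_le (dom_int Y hz hn).1 ?_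
      filter_upwards [ae_restrict_mem measurableSet_Ioi] with u hu
      rw [norm_mul, Real.norm_of_nonneg (Real.exp_pos _).le, Real.norm_eq_abs]
      exact mul_le_mul_of_nonneg_left (hd.cf_le hY hu) (Real.exp_pos _).le
    unfold bet
    rw [abs_mul, abs_mul, abs_of_pos (show (0 : ℝ) < 4 by norm_num)]
    calc 4 * |(ca n : ℝ)| * |∫ u in Ioi (0 : ℝ), Real.exp (-π * n * u) * cfY Y h u|
        ≤ 4 * |(ca n : ℝ)| * ((Y : ℝ) ^ z * (Real.Gamma (1 + z) * π ^ (-1 - z)) *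
          (n : ℝ) ^ (-1 - z)) := by gcongr
      _ = _ := by ring

lemma summable_LN (hLN : StLN) {z : ℝ} (hz : 0 ≤ z) {N : ℕ} (ω : Fin N → SignType) :
    Summable fun n : ℕ => |(ca n : ℝ)| * |Xf ω n| * (n : ℝ) ^ (-1 - z) := by
  have h := (hLN N ω (1 + z : ℂ) (by
    simp only [Complex.add_re, Complex.one_re, Complex.ofReal_re]
    linarith)).1
  refine h.congr fun n => ?_
  simp only [Complex.add_re, Complex.one_re, Complex.ofReal_re]
  congr 2
  ring

lemma Dom.summable (hC : StCoef) (hLN : StLN) {z : ℝ} {h : ℝ → ℝ} (hd : Dom Y z h) (hY : 1 ≤ Y)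
    (hz : 0 ≤ z) {N : ℕ} (ω : Fin N → SignType) :
    Summable fun n : ℕ => bet (cfY Y h) n * Xf ω n := by
  refine Summable.of_norm_bounded ((summable_LN hLN hz ω).mul_left
    (4 * ((Y : ℝ) ^ z * (Real.Gamma (1 + z) * π ^ (-1 - z))))) fun n => ?_
  rw [norm_mul, Real.norm_eq_abs, Real.norm_eq_abs]
  calc |bet (cfY Y h) n| * |Xf ω n| ≤ (4 * ((Y : ℝ) ^ z * (Real.Gamma (1 + z) * π ^ (-1 - z))) *
        (|(ca n : ℝ)| * (n : ℝ) ^ (-1 - z))) * |Xf ω n| :=
        mul_le_mul_of_nonneg_right (hd.bet_le hC hY hz n) (abs_nonneg _)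
    _ = _ := by ring

lemma Dom.bet_sub (hC : StCoef) {z : ℝ} {h₁ h₂ : ℝ → ℝ} (hd₁ : Dom Y z h₁) (hd₂ : Dom Y z h₂)
    (hY : 1 ≤ Y) (hz : 0 ≤ z) (n : ℕ) :
    bet (cfY Y (fun x => h₁ x - h₂ x)) n = bet (cfY Y h₁) n - bet (cfY Y h₂) n := by
  rcases Nat.eq_zero_or_pos n with rfl | hn
  · rw [bet_zero hC, bet_zero hC, bet_zero hC, sub_zero]
  · unfold bet
    rw [← mul_sub, ← integral_sub (hd₁.int hY hz hn) (hd₂.int hY hz hn)]
    congr 1
    refine setIntegral_congr_fun measurableSet_Ioi fun u _ => ?_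
    simp only [cfY]
    ring

end

/-- the linear form in the random model -/
noncomputable def FX (Y : ℕ) (h : ℝ → ℝ) (X : ℕ → ℝ) : ℝ := ∑' n : ℕ, bet (cfY Y h) n * X n

section

variable {Y : ℕ} {K : ℝ}

lemma domA (Y : ℕ) (K : ℝ) : Dom Y (K / Real.log Y) (hA Y K) := ⟨hA_meas Y K, hA_abs Y K⟩
lemma domB (Y : ℕ) (K : ℝ) : Dom Y (K / Real.log Y) (hB Y K) := ⟨hB_meas Y K, hB_abs Y K⟩
lemma domC (Y : ℕ) (K : ℝ) : Dom Y (K / Real.log Y) (hC Y K) := ⟨hC_meas Y K, hC_abs Y K⟩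

lemma bet_split (hCo : StCoef) (hY : 3 ≤ Y) (hK : 0 ≤ K) (n : ℕ) :
    bet (cfY Y (fun x => psi Y x * Real.exp (K / Real.log Y * x))) n =
      bet (cfY Y (hA Y K)) n - bet (cfY Y (hB Y K)) n - bet (cfY Y (hC Y K)) n := by
  have hL := Wf.logY_pos hY
  have hz : 0 ≤ K / Real.log Y := by positivity
  have hY1 : 1 ≤ Y := by omega
  rcases Nat.eq_zero_or_pos n with rfl | hn
  · simp only [bet_zero hCo, sub_zero]
  unfold bet
  rw [← mul_sub, ← integral_sub ((domA Y K).int hY1 hz hn) ((domB Y K).int hY1 hz hn),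
    ← mul_sub, ← integral_sub _ ((domC Y K).int hY1 hz hn)]
  · congr 1
    refine setIntegral_congr_fun measurableSet_Ioi fun u _ => ?_
    simp only [cfY]
    rw [psi_split hY]
    ring
  · exact ((domA Y K).int hY1 hz hn).sub ((domB Y K).int hY1 hz hn)

lemma FX_split (hCo : StCoef) (hLN : StLN) (hY : 3 ≤ Y) (hK : 0 ≤ K) {N : ℕ}
    (ω : Fin N → SignType) :
    FX Y (fun x => psi Y x * Real.exp (K / Real.log Y * x)) (Xf ω) =
      FX Y (hA Y K) (Xf ω) - FX Y (hB Y K) (Xf ω) - FX Y (hC Y K) (Xf ω) := by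
  have hL := Wf.logY_pos hY
  have hz : 0 ≤ K / Real.log Y := by positivity
  have hY1 : 1 ≤ Y := by omega
  unfold FX
  rw [← ((domA Y K).summable hCo hLN hY1 hz ω).tsum_sub ((domB Y K).summable hCo hLN hY1 hz ω),
    ← Summable.tsum_sub _ ((domC Y K).summable hCo hLN hY1 hz ω)]
  · refine tsum_congr fun n => ?_
    rw [bet_split hCo hY hK]
    ring
  · exact ((domA Y K).summable hCo hLN hY1 hz ω).sub ((domB Y K).summable hCo hLN hY1 hz ω)

lemma Y_rpow (hY : 3 ≤ Y) (c : ℝ) : (Y : ℝ) ^ (c / Real.log Y) = Real.exp c := by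
  have hL := Wf.logY_pos hY
  have hY0 : (0 : ℝ) < Y := by exact_mod_cast (by omega : 0 < Y)
  rw [Real.rpow_def_of_pos hY0]
  congr 1
  field_simp

/-- the complete weight gives the Euler product -/
lemma FX_A (hCo : StCoef) (hLN : StLN) (hY : 3 ≤ Y) (hK : 0 ≤ K) {N : ℕ}
    (ω : Fin N → SignType) :
    ((FX Y (hA Y K) (Xf ω) : ℝ) : ℂ) = (cmain Y K : ℂ) * LN N (Xf ω) (1 + K / Real.log Y) := by
  have hL := Wf.logY_pos hY
  have hz : 0 ≤ K / Real.log Y := by positivity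
  have hre : 1 / 2 < (1 + (K : ℂ) / Real.log Y).re := by
    have : (1 + (K : ℂ) / Real.log Y) = ((1 + K / Real.log Y : ℝ) : ℂ) := by push_cast; rfl
    rw [this, Complex.ofReal_re]
    linarith
  rw [(hLN N ω _ hre).2, ← tsum_mul_left]
  unfold FX
  rw [Complex.ofReal_tsum]
  refine tsum_congr fun n => ?_
  rcases Nat.eq_zero_or_pos n with rfl | hn
  · rw [bet_zero hCo, hCo.zero]
    simp
  have hn0 : (0 : ℝ) < n := by exact_mod_cast hn
  have h1 : bet (cfY Y (hA Y K)) n = cmain Y K * (ca n * (n : ℝ) ^ (-1 - K / Real.log Y)) := by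
    unfold bet cmain
    have h2 : ∫ u in Ioi (0 : ℝ), Real.exp (-π * n * u) * cfY Y (hA Y K) u =
        ∫ u in Ioi (0 : ℝ), Real.exp (-π * n * u) * (u * Y) ^ (K / Real.log Y) := by
      refine setIntegral_congr_fun measurableSet_Ioi fun u hu => ?_
      have hu0 : (0 : ℝ) < u := hu
      have hY0 : (0 : ℝ) < Y := by exact_mod_cast (by omega : 0 < Y)
      simp only [cfY, hA]
      rw [Real.rpow_def_of_pos (by positivity), mul_comm (K / Real.log Y)]
    rw [h2, (dom_int Y hz hn).2, Y_rpow hY]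
    ring
  have h3 : (n : ℂ) ^ (-(1 + (K : ℂ) / Real.log Y)) = (((n : ℝ) ^ (-1 - K / Real.log Y) : ℝ) : ℂ) := by
    rw [Complex.ofReal_cpow hn0.le]
    push_cast
    congr 1
    ring
  rw [h1, h3]
  push_cast
  ring

/-- expectation of a square of a sum of three -/
lemma EN_three {N : ℕ} {F A B C : (ℕ → ℝ) → ℝ}
    (h : ∀ ω : Fin N → SignType, F (Xf ω) = A (Xf ω) - B (Xf ω) - C (Xf ω)) {a b c : ℝ}
    (hA' : EN N (fun X => A X ^ 2) ≤ a) (hB' : EN N (fun X => B X ^ 2) ≤ b)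
    (hC' : EN N (fun X => C X ^ 2) ≤ c) :
    EN N (fun X => F X ^ 2) ≤ 3 * (a + b + c) := by
  have h1 : EN N (fun X => F X ^ 2) ≤ EN N (fun X => 3 * (A X ^ 2 + B X ^ 2 + C X ^ 2)) := by
    refine EN_mono fun ω => ?_
    rw [h ω]
    nlinarith [sq_nonneg (A (Xf ω) + B (Xf ω)), sq_nonneg (A (Xf ω) + C (Xf ω)),
      sq_nonneg (B (Xf ω) - C (Xf ω))]
  refine h1.trans ?_
  have h2 : EN N (fun X => 3 * (A X ^ 2 + B X ^ 2 + C X ^ 2)) =
      3 * (EN N (fun X => A X ^ 2) + EN N (fun X => B X ^ 2) + EN N (fun X => C X ^ 2)) := by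
    unfold EN
    rw [← Finset.sum_add_distrib, ← Finset.sum_add_distrib, Finset.mul_sum]
    refine Finset.sum_congr rfl fun ω _ => ?_
    ring
  rw [h2]
  linarith

lemma cmain_nonneg (hY : 3 ≤ Y) (hK : 0 ≤ K) : 0 ≤ cmain Y K := by
  have hL := Wf.logY_pos hY
  have hz : 0 ≤ K / Real.log Y := by positivity
  unfold cmain
  have := (Real.Gamma_pos_of_pos (by linarith : 0 < 1 + K / Real.log Y)).le
  positivity

lemma cmain_le (hY : 3 ≤ Y) (hK : 0 < K) (hKL : K ≤ Real.log Y) : cmain Y K ≤ 4 * Real.exp K := by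
  have hL := Wf.logY_pos hY
  have hz : 0 < K / Real.log Y := by positivity
  have hz1 : K / Real.log Y ≤ 1 := by rwa [div_le_one hL]
  have h1 := Gam_le_one hz hz1
  have h0 := (Real.Gamma_pos_of_pos (by linarith : 0 < 1 + K / Real.log Y)).le
  have h2 : π ^ (-1 - K / Real.log Y) ≤ 1 := by
    apply Real.rpow_le_one_of_one_le_of_nonpos
    · have := Real.pi_gt_three
      linarith
    · linarith
  unfold cmain
  calc 4 * Real.Gamma (1 + K / Real.log Y) * π ^ (-1 - K / Real.log Y) * Real.exp K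
      ≤ 4 * 1 * 1 * Real.exp K := by gcongr
    _ = 4 * Real.exp K := by ring

/-- `K^A e^K ≤ C e^{2K - c √K}` -/
lemma pow_le_exp (A : ℕ) : ∃ C : ℝ, 1 ≤ C ∧ ∀ K c : ℝ, 1 ≤ K → c ≤ 1 / 2 →
    K ^ A * Real.exp K ≤ C * Real.exp (2 * K - c * √K) := by
  refine ⟨max 1 ((2 : ℝ) ^ A * (A.factorial : ℝ)), le_max_left _ _, fun K c hK hc => ?_⟩
  have hK0 : 0 < K := by linarith
  have h1 : (K / 2) ^ A / (A.factorial : ℝ) ≤ Real.exp (K / 2) :=
    Real.pow_div_factorial_le_exp (K / 2) (by positivity) A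
  have h2 : K ^ A ≤ 2 ^ A * A.factorial * Real.exp (K / 2) := by
    rw [div_le_iff₀ (by positivity), div_pow, div_le_iff₀ (by positivity)] at h1
    linarith
  have h3 : √K ≤ K := by
    rw [Real.sqrt_le_left hK0.le]
    nlinarith
  have h4 : c * √K ≤ K / 2 := by
    calc c * √K ≤ 1 / 2 * √K := mul_le_mul_of_nonneg_right hc (Real.sqrt_nonneg _)
      _ ≤ 1 / 2 * K := by linarith
      _ = K / 2 := by ring
  calc K ^ A * Real.exp K ≤ (2 ^ A * A.factorial * Real.exp (K / 2)) * Real.exp K := by gcongr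
    _ = 2 ^ A * A.factorial * Real.exp (K / 2 + K) := by rw [Real.exp_add]; ring
    _ ≤ max 1 ((2 : ℝ) ^ A * (A.factorial : ℝ)) * Real.exp (2 * K - c * √K) := by
        gcongr
        · exact le_max_right _ _
        · linarith

/-- the random model bound for the main term -/
lemma main_model (hCo : StCoef) (hPN : StPassN) (hLN : StLN) (hR2 : StR2) (hR3 : StR3)
    (hRA : StRepA) (hRB : StRepB) :
    ∃ C c : ℝ, 1 ≤ C ∧ 0 < c ∧ c ≤ 1 / 2 ∧ ∀ (Y : ℕ) (K : ℝ) (S : Finset ℕ) (m : ℕ → ℝ) (N : ℕ),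
    3 ≤ Y → 1 ≤ K → K ≤ Real.log Y → (∀ a ∈ S, a ≠ 0) →
    (∀ X : ℕ → ℝ, CM X → Mf (Real.log Y) K 0 ⌈Real.log Y⌉₊ X = ∑ a ∈ S, m a * X a) →
    yk (Real.log Y) 0 < N →
    EN N (fun X => (Dp S m X * FX Y (fun x => psi Y x * Real.exp (K / Real.log Y * x)) X -
      cmain Y K) ^ 2) ≤ C * Real.exp (2 * K - c * √K) := by
  obtain ⟨CR, hCR, AR, hR2'⟩ := hR2
  obtain ⟨C3, c3, hC3, hc3, hR3'⟩ := hR3
  obtain ⟨CA, hCA, hA'⟩ := hRA AR
  obtain ⟨CB, hCB, hB'⟩ := hRB AR
  obtain ⟨CP, hCP, hPow⟩ := pow_le_exp (AR + 2 * (AR + 2))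
  set DA := 16 * (CR * 20 ^ AR) * (Real.exp (1 / 2) * CA) ^ 2 with hDA
  set DB := 16 * (CR * 20 ^ AR) * CB ^ 2 with hDB
  refine ⟨max 1 (3 * (16 * C3 + DA * CP + DB * CP)), min c3 (1 / 2), le_max_left _ _,
    lt_min hc3 (by norm_num), min_le_right _ _, ?_⟩
  intro Y K S m N hY hK hKL hS0 hM hN
  have hL := logY_ge_one hY
  have hL0 : 0 < Real.log Y := by linarith
  have hK0 : 0 < K := by linarith
  have hw : 0 < wj Y 0 := by unfold wj; positivity
  have hY1 : 1 ≤ Y := by omega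
  have hwL : wj Y 0 * 20 = Real.log Y := by
    unfold wj
    rw [pow_zero, mul_one]
    field_simp
  have hc' : min c3 (1 / 2) ≤ 1 / 2 := min_le_right _ _
  set c := min c3 (1 / 2) with hcdef
  -- the second moment bound on a line
  have hline : ∀ σ : ℝ, 1 / (2 * Real.log Y) ≤ σ → σ ≤ 10 * K / Real.log Y → ∀ τ : ℝ,
      EN N (fun X => (∑ a ∈ S, m a * X a) ^ 2 * ‖LN N X (1 + σ + τ * Complex.I)‖ ^ 2) ≤
        (CR * 20 ^ AR * K ^ AR) * (1 + |τ| * wj Y 0) ^ (2 * AR) := by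
    intro σ h1 h2 τ
    have h5 := hR2' (Real.log Y) K σ τ 0 N hL hK hKL h1 h2 hN
    have e5 : EN N (fun X => (∑ a ∈ S, m a * X a) ^ 2 * ‖LN N X (1 + (σ : ℂ) + τ * Complex.I)‖ ^ 2) =
        EN N (fun X => (Mf (Real.log Y) K (2 * 0) ⌈Real.log Y⌉₊ X) ^ 2 *
          ‖LN N X (1 + (σ : ℂ) + τ * Complex.I)‖ ^ 2) := by
      refine EN_congr fun ω => ?_
      rw [mul_zero, hM _ (Xf_CM ω)]
    rw [e5]
    refine h5.trans ?_
    rw [pow_zero, mul_one, div_one]
    have h6 : 1 + |τ| * Real.log Y ≤ 20 * (1 + |τ| * wj Y 0) := by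
      rw [← hwL]
      linarith
    have h7 : (0 : ℝ) ≤ |τ| * wj Y 0 := by positivity
    have h8 : (1 : ℝ) ≤ 1 + |τ| * wj Y 0 := by linarith
    have h9 : (0 : ℝ) ≤ |τ| * Real.log Y := by positivity
    calc CR * K ^ AR * (1 + |τ| * Real.log Y) ^ AR
        ≤ CR * K ^ AR * (20 * (1 + |τ| * wj Y 0)) ^ AR := by gcongr
      _ = CR * 20 ^ AR * K ^ AR * (1 + |τ| * wj Y 0) ^ AR := by
          rw [mul_pow 20]
          ring
      _ ≤ CR * 20 ^ AR * K ^ AR * (1 + |τ| * wj Y 0) ^ (2 * AR) :=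
          mul_le_mul_of_nonneg_left (pow_le_pow_right₀ h8 (by omega)) (by positivity)
  -- piece A
  have hpA : EN N (fun X => (Dp S m X * FX Y (hA Y K) X - cmain Y K) ^ 2) ≤
      16 * C3 * Real.exp (2 * K - c * √K) := by
    have e1 : EN N (fun X => (Dp S m X * FX Y (hA Y K) X - cmain Y K) ^ 2) =
        EN N (fun X => cmain Y K ^ 2 * ‖(Mf (Real.log Y) K 0 ⌈Real.log Y⌉₊ X : ℂ) *
          LN N X (1 + K / Real.log Y) - 1‖ ^ 2) := by
      refine EN_congr fun ω => ?_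
      have e2 : (((Dp S m (Xf ω) * FX Y (hA Y K) (Xf ω) - cmain Y K : ℝ)) : ℂ) =
          (cmain Y K : ℂ) * ((Mf (Real.log Y) K 0 ⌈Real.log Y⌉₊ (Xf ω) : ℂ) *
          LN N (Xf ω) (1 + K / Real.log Y) - 1) := by
        rw [hM _ (Xf_CM ω)]
        push_cast
        rw [FX_A hCo hLN hY hK0.le ω]
        unfold Dp
        push_cast
        ring
      rw [← sq_abs, ← Real.norm_eq_abs, ← Complex.norm_real, e2, norm_mul, mul_pow,
        Complex.norm_real, Real.norm_eq_abs, sq_abs]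
    rw [e1, EN_const_mul]
    have h1 := hR3' (Real.log Y) K N hL hK hKL hN
    have h2 : cmain Y K ^ 2 ≤ 16 * Real.exp (2 * K) := by
      calc cmain Y K ^ 2 ≤ (4 * Real.exp K) ^ 2 :=
            pow_le_pow_left₀ (cmain_nonneg hY hK0.le) (cmain_le hY hK0 hKL) 2
        _ = 16 * Real.exp (2 * K) := by
            rw [mul_pow, ← Real.exp_nat_mul]
            norm_num
    have h3 : Real.exp (-c3 * √K) ≤ Real.exp (-c * √K) := by
      refine Real.exp_le_exp.2 ?_
      have h4 : c ≤ c3 := min_le_left _ _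
      nlinarith [Real.sqrt_nonneg K, mul_le_mul_of_nonneg_right h4 (Real.sqrt_nonneg K)]
    have h5 : 0 ≤ EN N (fun X => ‖(Mf (Real.log Y) K 0 ⌈Real.log Y⌉₊ X : ℂ) *
        LN N X (1 + K / Real.log Y) - 1‖ ^ 2) := EN_nonneg fun ω => by positivity
    calc cmain Y K ^ 2 * EN N (fun X => ‖(Mf (Real.log Y) K 0 ⌈Real.log Y⌉₊ X : ℂ) *
          LN N X (1 + K / Real.log Y) - 1‖ ^ 2)
        ≤ (16 * Real.exp (2 * K)) * (C3 * Real.exp (-c3 * √K)) :=
          mul_le_mul h2 h1 h5 (by positivity)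
      _ ≤ (16 * Real.exp (2 * K)) * (C3 * Real.exp (-c * √K)) := by gcongr
      _ = 16 * C3 * Real.exp (2 * K - c * √K) := by
          rw [sub_eq_add_neg, Real.exp_add, neg_mul]
          ring
  -- piece B
  have hpB : EN N (fun X => (Dp S m X * FX Y (hB Y K) X) ^ 2) ≤
      DA * CP * Real.exp (2 * K - c * √K) := by
    obtain ⟨g, hg1, hg2, hg3, hg4, hg5⟩ := hA' Y K hY hK
    have h1 := hPN Y S m (CR * 20 ^ AR * K ^ AR) (wj Y 0) (1 / (2 * Real.log Y)) AR N (hB Y K) g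
      hY1 (by positivity) (by
        rw [div_le_iff₀ (by positivity)]
        linarith) (by positivity) hw (hB_meas Y K) hS0 hg1 hg2 hg4
      (fun x => by
        have := hg3 x
        unfold hB
        push_cast at this ⊢
        exact this)
      (fun τ => hline _ le_rfl (by
        rw [div_le_div_iff₀ (by positivity) hL0]
        nlinarith) τ)
    have e1 : EN N (fun X => (Dp S m X * FX Y (hB Y K) X) ^ 2) =
        EN N (fun X => (∑ a ∈ S, m a * X a) ^ 2 * (∑' n : ℕ, bet (cfY Y (hB Y K)) n * X n) ^ 2) := by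
      refine EN_congr fun ω => ?_
      unfold Dp FX
      ring
    rw [e1]
    refine h1.trans ?_
    have e2 : (Y : ℝ) ^ (1 / (2 * Real.log Y)) = Real.exp (1 / 2) := by
      rw [← Y_rpow hY (1 / 2)]
      congr 1
      field_simp
    rw [e2]
    have hint0 : 0 ≤ ∫ τ, ‖g τ‖ * (1 + |τ| * wj Y 0) ^ AR :=
      integral_nonneg fun τ => by positivity
    calc 16 * (CR * 20 ^ AR * K ^ AR) * (Real.exp (1 / 2) *
          ∫ τ, ‖g τ‖ * (1 + |τ| * wj Y 0) ^ AR) ^ 2
        ≤ 16 * (CR * 20 ^ AR * K ^ AR) * (Real.exp (1 / 2) *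
          (CA * K ^ (AR + 2) * Real.exp (K / 10))) ^ 2 := by gcongr
      _ = DA * (K ^ (AR + 2 * (AR + 2)) * Real.exp (K / 5)) := by
          have e3 : Real.exp (K / 5) = Real.exp (K / 10) ^ 2 := by
            rw [← Real.exp_nat_mul]
            congr 1
            push_cast
            ring
          rw [hDA, e3]
          ring
      _ ≤ DA * (K ^ (AR + 2 * (AR + 2)) * Real.exp K) := by
          gcongr
          linarith
      _ ≤ DA * (CP * Real.exp (2 * K - c * √K)) := by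
          refine mul_le_mul_of_nonneg_left (hPow K c hK hc') (by positivity)
      _ = DA * CP * Real.exp (2 * K - c * √K) := by ring
  -- piece C
  have hpC : EN N (fun X => (Dp S m X * FX Y (hC Y K) X) ^ 2) ≤
      DB * CP * Real.exp (2 * K - c * √K) := by
    obtain ⟨g, hg1, hg2, hg3, hg4, hg5⟩ := hB' Y K hY hK
    have h1 := hPN Y S m (CR * 20 ^ AR * K ^ AR) (wj Y 0) (2 * K / Real.log Y) AR N (hC Y K) g
      hY1 (by positivity) (by
        rw [div_le_iff₀ (by positivity)]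
        linarith) (by positivity) hw (hC_meas Y K) hS0 hg1 hg2 hg4
      (fun x => by
        have := hg3 x
        unfold hC
        push_cast at this ⊢
        exact this)
      (fun τ => hline _ (by
        rw [div_le_div_iff₀ (by positivity) hL0]
        nlinarith) (by
        rw [div_le_div_iff_of_pos_right hL0]
        linarith) τ)
    have e1 : EN N (fun X => (Dp S m X * FX Y (hC Y K) X) ^ 2) =
        EN N (fun X => (∑ a ∈ S, m a * X a) ^ 2 * (∑' n : ℕ, bet (cfY Y (hC Y K)) n * X n) ^ 2) := by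
      refine EN_congr fun ω => ?_
      unfold Dp FX
      ring
    rw [e1]
    refine h1.trans ?_
    rw [Y_rpow hY (2 * K)]
    have hint0 : 0 ≤ ∫ τ, ‖g τ‖ * (1 + |τ| * wj Y 0) ^ AR :=
      integral_nonneg fun τ => by positivity
    calc 16 * (CR * 20 ^ AR * K ^ AR) * (Real.exp (2 * K) *
          ∫ τ, ‖g τ‖ * (1 + |τ| * wj Y 0) ^ AR) ^ 2
        ≤ 16 * (CR * 20 ^ AR * K ^ AR) * (Real.exp (2 * K) *
          (CB * K ^ (AR + 2) * Real.exp (-(3 / 2) * K))) ^ 2 := by gcongr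
      _ = DB * (K ^ (AR + 2 * (AR + 2)) * Real.exp K) := by
          have e3 : Real.exp K = (Real.exp (2 * K) * Real.exp (-(3 / 2) * K)) ^ 2 := by
            rw [← Real.exp_add, ← Real.exp_nat_mul]
            congr 1
            push_cast
            ring
          rw [hDB, e3]
          ring
      _ ≤ DB * (CP * Real.exp (2 * K - c * √K)) := by
          refine mul_le_mul_of_nonneg_left (hPow K c hK hc') (by positivity)
      _ = DB * CP * Real.exp (2 * K - c * √K) := by ring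
  have htot := EN_three (N := N)
    (F := fun X => Dp S m X * FX Y (fun x => psi Y x * Real.exp (K / Real.log Y * x)) X - cmain Y K)
    (A := fun X => Dp S m X * FX Y (hA Y K) X - cmain Y K)
    (B := fun X => Dp S m X * FX Y (hB Y K) X) (C := fun X => Dp S m X * FX Y (hC Y K) X)
    (fun ω => by
      rw [FX_split hCo hLN hY hK0.le ω]
      ring) hpA hpB hpC
  refine htot.trans ?_
  calc 3 * (16 * C3 * Real.exp (2 * K - c * √K) + DA * CP * Real.exp (2 * K - c * √K) +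
        DB * CP * Real.exp (2 * K - c * √K))
      = (3 * (16 * C3 + DA * CP + DB * CP)) * Real.exp (2 * K - c * √K) := by ring
    _ ≤ max 1 (3 * (16 * C3 + DA * CP + DB * CP)) * Real.exp (2 * K - c * √K) := by
        gcongr
        exact le_max_right _ _

end

end Moll

end P004
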